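import Mathlib

set_option autoImplicit false

namespace Crest.Agent.S0423Lib

open MeasureTheory Set Real Filter Topology

noncomputable section

/-- Outer-inner form of log-concavity. -/
def LC (f : ℝ → ℝ) : Prop :=
  ∀ x y h : ℝ, x ≤ y → 0 ≤ h → f (x - h) * f (y + h) ≤ f x * f y

lemma LC.outer {f : ℝ → ℝ} (hf : LC f) {p q r s : ℝ} (hsum : p + s = q + r)
    (h1 : p ≤ q) (h2 : p ≤ r) : f p * f s ≤ f q * f r := by
  rcases le_total q r with h | h
  · have := hf q r (q - p) h (by linarith)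
    have e1 : q - (q - p) = p := by ring
    have e2 : r + (q - p) = s := by linarith
    rwa [e1, e2] at this
  · have := hf r q (r - p) h (by linarith)
    have e1 : r - (r - p) = p := by ring
    have e2 : q + (r - p) = s := by linarith
    rw [e1, e2] at this
    linarith [mul_comm (f r) (f q)]

lemma prod_integral_le {A B : Set ℝ} (hA : MeasurableSet A) (hB : MeasurableSet B)
    {p q r s : ℝ → ℝ} (hp : IntegrableOn p A) (hq : IntegrableOn q B)
    (hr : IntegrableOn r A) (hs : IntegrableOn s B)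
    (H : ∀ u ∈ A, ∀ v ∈ B, p u * q v ≤ r u * s v) :
    (∫ u in A, p u) * (∫ v in B, q v) ≤ (∫ u in A, r u) * (∫ v in B, s v) := by
  rw [← integral_mul_const, ← integral_mul_const]
  apply setIntegral_mono_on (hp.mul_const _) (hr.mul_const _) hA
  intro u hu
  rw [← integral_const_mul, ← integral_const_mul]
  exact setIntegral_mono_on (hq.const_mul _) (hs.const_mul _) hB (fun v hv => H u hu v hv)

lemma setIntegral_shift (φ : ℝ → ℝ) (A : Set ℝ) (D : ℝ) :
    ∫ u in (fun u => u + D) ⁻¹' A, φ (u + D) = ∫ u in A, φ u :=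
  (measurePreserving_add_right volume D).setIntegral_preimage_emb
    (measurableEmbedding_addRight D) φ A

lemma integrableOn_shift {φ : ℝ → ℝ} {A : Set ℝ} (D : ℝ) (h : IntegrableOn φ A) :
    IntegrableOn (fun u => φ (u + D)) ((fun u => u + D) ⁻¹' A) :=
  ((measurePreserving_add_right volume D).integrableOn_comp_preimage
    (measurableEmbedding_addRight D)).2 h

lemma LC_tail {φ : ℝ → ℝ} (hLC : LC φ) (hint : ∀ x, IntegrableOn φ (Ioi x)) :
    LC (fun s => ∫ r in Ioi s, φ r) := by
  intro x y h hxy hh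
  simp only
  set D := y + h - x with hD
  have hD0 : 0 ≤ D := by linarith
  have e1 : (∫ r in Ioi (x - h), φ r) = (∫ r in Ioc (x - h) x, φ r) + ∫ r in Ioi x, φ r := by
    rw [← setIntegral_union (Ioc_disjoint_Ioi_same) measurableSet_Ioi
      ((hint (x - h)).mono_set Ioc_subset_Ioi_self) (hint x), Ioc_union_Ioi_eq_Ioi (by linarith)]
  have e2 : (∫ r in Ioi y, φ r) = (∫ r in Ioc y (y + h), φ r) + ∫ r in Ioi (y + h), φ r := by
    rw [← setIntegral_union (Ioc_disjoint_Ioi_same) measurableSet_Ioi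
      ((hint y).mono_set Ioc_subset_Ioi_self) (hint (y + h)), Ioc_union_Ioi_eq_Ioi (by linarith)]
  have pre1 : (fun u => u + D) ⁻¹' (Ioc y (y + h)) = Ioc (x - h) x := by
    ext u
    simp only [mem_preimage, mem_Ioc, hD]
    constructor <;> rintro ⟨h1, h2⟩ <;> constructor <;> linarith
  have pre2 : (fun u => u + (-D)) ⁻¹' (Ioi x) = Ioi (y + h) := by
    ext u
    simp only [mem_preimage, mem_Ioi, hD]
    constructor <;> intro h1 <;> linarith
  have key : (∫ r in Ioc (x - h) x, φ r) * (∫ r in Ioi (y + h), φ r)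
      ≤ (∫ r in Ioi x, φ r) * (∫ r in Ioc y (y + h), φ r) := by
    have h3 := prod_integral_le (A := Ioc (x - h) x) (B := Ioi (y + h))
      (p := φ) (q := φ) (r := fun u => φ (u + D)) (s := fun v => φ (v + (-D)))
      measurableSet_Ioc measurableSet_Ioi
      ((hint (x - h)).mono_set Ioc_subset_Ioi_self) (hint (y + h))
      (by
        have := integrableOn_shift D ((hint y).mono_set (show Ioc y (y + h) ⊆ Ioi y from Ioc_subset_Ioi_self))
        rwa [pre1] at this)
      (by
        have := integrableOn_shift (-D) (hint x)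
        rwa [pre2] at this)
      (by
        intro u hu v hv
        simp only [mem_Ioc, mem_Ioi] at hu hv
        apply hLC.outer
        · simp only [hD]; ring
        · simp only [hD]; linarith [hu.1, hu.2]
        · simp only [hD]; linarith [hu.1, hu.2])
    have s1 := setIntegral_shift φ (Ioc y (y + h)) D
    have s2 := setIntegral_shift φ (Ioi x) (-D)
    rw [pre1] at s1
    rw [pre2] at s2
    rw [s1, s2] at h3
    linarith [mul_comm (∫ r in Ioi x, φ r) (∫ r in Ioc y (y + h), φ r)]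
  rw [e1, e2]
  nlinarith [key]

/-- The averaging operator along an exponential variable. -/
def Op (a : ℝ) (f : ℝ → ℝ) (s : ℝ) : ℝ := ∫ x in Ioi (0 : ℝ), f (s + a * x) * exp (-x)

lemma Op_zero (f : ℝ → ℝ) (s : ℝ) : Op 0 f s = f s := by
  simp only [Op, zero_mul, add_zero]
  rw [integral_const_mul, integral_exp_neg_Ioi_zero, mul_one]

lemma Op_eq_of_pos {a : ℝ} (ha : 0 < a) (f : ℝ → ℝ) (s : ℝ) :
    Op a f s = (exp (s / a) / a) * ∫ r in Ioi s, f r * exp (-r / a) := by
  have h1 : Op a f s = ∫ x in Ioi (0 : ℝ), (fun y => f (s + y) * exp (-y / a)) (a * x) := by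
    unfold Op
    refine setIntegral_congr_fun measurableSet_Ioi fun x _ => ?_
    have : -(a * x) / a = -x := by field_simp
    simp only [this]
  rw [h1, integral_comp_mul_left_Ioi (fun y => f (s + y) * exp (-y / a)) 0 ha, mul_zero, smul_eq_mul]
  have pre : (fun u => u + s) ⁻¹' (Ioi s) = Ioi (0 : ℝ) := by
    ext u; simp
  have h2 := setIntegral_shift (fun r => f r * exp (-(r - s) / a)) (Ioi s) s
  rw [pre] at h2
  have h3 : (∫ y in Ioi (0 : ℝ), f (s + y) * exp (-y / a))
      = ∫ y in Ioi (0 : ℝ), f (y + s) * exp (-(y + s - s) / a) := by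
    refine setIntegral_congr_fun measurableSet_Ioi fun y _ => ?_
    simp only [add_sub_cancel_right, add_comm s y]
  rw [h3, h2]
  have h4 : (∫ r in Ioi s, f r * exp (-(r - s) / a))
      = ∫ r in Ioi s, exp (s / a) * (f r * exp (-r / a)) := by
    refine setIntegral_congr_fun measurableSet_Ioi fun r _ => ?_
    have : -(r - s) / a = s / a + -r / a := by ring
    simp only [this, exp_add]
    ring
  rw [h4, integral_const_mul]
  field_simp

lemma integrableOn_mul_exp {a : ℝ} (ha : 0 < a) {f : ℝ → ℝ} (hm : Measurable f)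
    (hb : ∀ s, |f s| ≤ 1) (x : ℝ) :
    IntegrableOn (fun r => f r * exp (-r / a)) (Ioi x) := by
  have h0 : IntegrableOn (fun r => exp (-(1 / a) * r)) (Ioi x) :=
    exp_neg_integrableOn_Ioi x (by positivity)
  refine Integrable.mono' h0 (by fun_prop) (Eventually.of_forall fun r => ?_)
  have e : -(1 / a) * r = -r / a := by ring
  rw [e, Real.norm_eq_abs, abs_mul, abs_of_pos (exp_pos _)]
  exact mul_le_of_le_one_left (exp_pos _).le (hb r)

lemma integrableOn_Op {a : ℝ} {f : ℝ → ℝ} (hm : Measurable f) (hb : ∀ s, |f s| ≤ 1) (s : ℝ) :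
    IntegrableOn (fun x => f (s + a * x) * exp (-x)) (Ioi 0) := by
  have h0 : IntegrableOn (fun r => exp (-r)) (Ioi (0 : ℝ)) := integrableOn_exp_neg_Ioi 0
  refine Integrable.mono' h0 (by fun_prop) (Eventually.of_forall fun r => ?_)
  rw [Real.norm_eq_abs, abs_mul, abs_of_pos (exp_pos _)]
  exact mul_le_of_le_one_left (exp_pos _).le (hb _)

lemma LC_Op_of_pos {a : ℝ} (ha : 0 < a) {f : ℝ → ℝ} (hm : Measurable f) (hb : ∀ s, |f s| ≤ 1)
    (hLC : LC f) : LC (Op a f) := by
  have hφ : LC (fun r => f r * exp (-r / a)) := by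
    intro x y h hxy hh
    have h1 := hLC x y h hxy hh
    have e : exp (-(x - h) / a) * exp (-(y + h) / a) = exp (-x / a) * exp (-y / a) := by
      rw [← exp_add, ← exp_add]; congr 1; ring
    have : f (x - h) * exp (-(x - h) / a) * (f (y + h) * exp (-(y + h) / a))
        = (f (x - h) * f (y + h)) * (exp (-(x - h) / a) * exp (-(y + h) / a)) := by ring
    simp only
    rw [this, e]
    have h2 : f x * exp (-x / a) * (f y * exp (-y / a))
        = (f x * f y) * (exp (-x / a) * exp (-y / a)) := by ring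
    rw [h2]
    exact mul_le_mul_of_nonneg_right h1 (by positivity)
  have hV := LC_tail hφ (integrableOn_mul_exp ha hm hb)
  intro x y h hxy hh
  have h1 := hV x y h hxy hh
  simp only at h1
  rw [Op_eq_of_pos ha, Op_eq_of_pos ha, Op_eq_of_pos ha, Op_eq_of_pos ha]
  set V := fun s => ∫ r in Ioi s, f r * exp (-r / a)
  have e : exp ((x - h) / a) * exp ((y + h) / a) = exp (x / a) * exp (y / a) := by
    rw [← exp_add, ← exp_add]; congr 1; ring
  have c1 : exp ((x - h) / a) / a * (∫ r in Ioi (x - h), f r * exp (-r / a))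
        * (exp ((y + h) / a) / a * ∫ r in Ioi (y + h), f r * exp (-r / a))
      = (exp ((x - h) / a) * exp ((y + h) / a)) / a ^ 2 *
        ((∫ r in Ioi (x - h), f r * exp (-r / a)) * ∫ r in Ioi (y + h), f r * exp (-r / a)) := by
    field_simp
  have c2 : exp (x / a) / a * (∫ r in Ioi x, f r * exp (-r / a))
        * (exp (y / a) / a * ∫ r in Ioi y, f r * exp (-r / a))
      = (exp (x / a) * exp (y / a)) / a ^ 2 *
        ((∫ r in Ioi x, f r * exp (-r / a)) * ∫ r in Ioi y, f r * exp (-r / a)) := by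
    field_simp
  rw [c1, c2, e]
  exact mul_le_mul_of_nonneg_left h1 (by positivity)

/-- reflection -/
lemma LC_reflect {f : ℝ → ℝ} (hf : LC f) : LC (fun s => f (-s)) := by
  intro x y h hxy hh
  have := hf (-y) (-x) h (by linarith) hh
  have e1 : -(x - h) = -x + h := by ring
  have e2 : -(y + h) = -y - h := by ring
  simp only [e1, e2]
  linarith [mul_comm (f (-x + h)) (f (-y - h)), mul_comm (f (-x)) (f (-y))]

lemma Op_reflect (a : ℝ) (f : ℝ → ℝ) (s : ℝ) :
    Op a f s = Op (-a) (fun r => f (-r)) (-s) := by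
  unfold Op
  refine setIntegral_congr_fun measurableSet_Ioi fun x _ => ?_
  have : -(-s + -a * x) = s + a * x := by ring
  simp only [this]

lemma LC_Op {a : ℝ} {f : ℝ → ℝ} (hm : Measurable f) (hb : ∀ s, |f s| ≤ 1)
    (hLC : LC f) : LC (Op a f) := by
  rcases lt_trichotomy a 0 with ha | ha | ha
  · have h1 : LC (Op (-a) (fun r => f (-r))) :=
      LC_Op_of_pos (by linarith) (hm.comp measurable_neg) (fun s => hb _) (LC_reflect hLC)
    have h2 := LC_reflect h1
    have : Op a f = fun s => Op (-a) (fun r => f (-r)) (-s) := by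
      funext s; exact Op_reflect a f s
    rw [this]; exact h2
  · subst ha
    have : Op 0 f = f := by funext s; exact Op_zero f s
    rw [this]; exact hLC
  · exact LC_Op_of_pos ha hm hb hLC

/-- basic bounds of `Op` -/
lemma Op_nonneg {a : ℝ} {f : ℝ → ℝ} (h0 : ∀ s, 0 ≤ f s) (s : ℝ) : 0 ≤ Op a f s :=
  setIntegral_nonneg measurableSet_Ioi fun x _ => mul_nonneg (h0 _) (exp_pos _).le

lemma Op_le_one {a : ℝ} {f : ℝ → ℝ} (hm : Measurable f) (hb : ∀ s, |f s| ≤ 1)
    (h1 : ∀ s, f s ≤ 1) (s : ℝ) : Op a f s ≤ 1 := by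
  have : Op a f s ≤ ∫ x in Ioi (0 : ℝ), exp (-x) := by
    refine setIntegral_mono_on (integrableOn_Op hm hb s) (integrableOn_exp_neg_Ioi 0)
      measurableSet_Ioi fun x _ => ?_
    exact mul_le_of_le_one_left (exp_pos _).le (h1 _)
  rwa [integral_exp_neg_Ioi_zero] at this

lemma Op_mono {a : ℝ} {f : ℝ → ℝ} (hm : Measurable f) (hb : ∀ s, |f s| ≤ 1) (hf : Monotone f) :
    Monotone (Op a f) := by
  intro s t hst
  refine setIntegral_mono_on (integrableOn_Op hm hb s) (integrableOn_Op hm hb t)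
    measurableSet_Ioi fun x _ => ?_
  exact mul_le_mul_of_nonneg_right (hf (by linarith)) (exp_pos _).le


/-- continuity of `Op` at a nonzero coefficient -/
lemma continuous_Op_of_pos {a : ℝ} (ha : 0 < a) {f : ℝ → ℝ} (hm : Measurable f)
    (hb : ∀ s, |f s| ≤ 1) : Continuous (Op a f) := by
  have hint := integrableOn_mul_exp ha hm hb
  have hII : ∀ u v, IntervalIntegrable (fun r => f r * exp (-r / a)) volume u v := by
    intro u v
    rw [intervalIntegrable_iff]
    exact (hint (min u v)).mono_set (by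
      intro r hr
      rw [uIoc] at hr
      exact hr.1)
  have hprim := intervalIntegral.continuous_primitive hII 0
  have hV : (fun s => ∫ r in Ioi s, f r * exp (-r / a))
      = fun s => (∫ r in Ioi (0 : ℝ), f r * exp (-r / a)) - ∫ r in (0 : ℝ)..s, f r * exp (-r / a) := by
    funext s
    have := intervalIntegral.integral_Ioi_sub_Ioi' (hint 0) (hint s)
    linarith
  have : Op a f = fun s => (exp (s / a) / a) * ∫ r in Ioi s, f r * exp (-r / a) := by
    funext s; exact Op_eq_of_pos ha f s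
  rw [this]
  refine Continuous.mul (by fun_prop) ?_
  rw [hV]
  exact continuous_const.sub hprim

lemma continuous_Op {a : ℝ} (ha : a ≠ 0) {f : ℝ → ℝ} (hm : Measurable f)
    (hb : ∀ s, |f s| ≤ 1) : Continuous (Op a f) := by
  rcases lt_or_gt_of_ne ha with h | h
  · have h1 : Continuous (Op (-a) (fun r => f (-r))) :=
      continuous_Op_of_pos (by linarith) (hm.comp measurable_neg) (fun s => hb _)
    have : Op a f = fun s => Op (-a) (fun r => f (-r)) (-s) := by
      funext s; exact Op_reflect a f s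
    rw [this]
    exact h1.comp continuous_neg
  · exact continuous_Op_of_pos h hm hb

/-- positivity of `Op` -/
lemma Op_pos_of_support {a : ℝ} {f : ℝ → ℝ} (hm : Measurable f) (hb : ∀ s, |f s| ≤ 1)
    (h0 : ∀ s, 0 ≤ f s) {s : ℝ} {A : Set ℝ} (hA : MeasurableSet A) (hA0 : A ⊆ Ioi 0)
    (hApos : 0 < volume A) (hpos : ∀ x ∈ A, 0 < f (s + a * x)) : 0 < Op a f s := by
  unfold Op
  rw [setIntegral_pos_iff_support_of_nonneg_ae
    (Eventually.of_forall fun x => mul_nonneg (h0 _) (exp_pos _).le) (integrableOn_Op hm hb s)]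
  refine lt_of_lt_of_le hApos (measure_mono ?_)
  intro x hx
  refine ⟨?_, hA0 hx⟩
  exact (mul_pos (hpos x hx) (exp_pos _)).ne'

lemma Op_pos_large {a : ℝ} {f : ℝ → ℝ} (hm : Measurable f) (hb : ∀ s, |f s| ≤ 1)
    (h0 : ∀ s, 0 ≤ f s) {s0 : ℝ} (hs0 : ∀ s, s0 ≤ s → 0 < f s) :
    ∀ s, s0 + 1 ≤ s → 0 < Op a f s := by
  intro s hs
  have hδ : 0 < 1 / (|a| + 1) := by positivity
  refine Op_pos_of_support hm hb h0 (A := Ioo 0 (1 / (|a| + 1))) measurableSet_Ioo
    Ioo_subset_Ioi_self (by simpa using hδ) ?_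
  intro x hx
  apply hs0
  have h1 : |a * x| ≤ 1 := by
    rw [abs_mul, abs_of_pos hx.1]
    have h2 : x ≤ 1 / (|a| + 1) := hx.2.le
    calc |a| * x ≤ (|a| + 1) * (1 / (|a| + 1)) :=
          mul_le_mul (by linarith) h2 hx.1.le (by positivity)
      _ = 1 := by field_simp
  linarith [neg_le_of_abs_le h1]

lemma Op_pos_of_coeff_pos {a : ℝ} (ha : 0 < a) {f : ℝ → ℝ} (hm : Measurable f)
    (hb : ∀ s, |f s| ≤ 1) (h0 : ∀ s, 0 ≤ f s) {s0 : ℝ} (hs0 : ∀ s, s0 ≤ s → 0 < f s) (s : ℝ) :
    0 < Op a f s := by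
  refine Op_pos_of_support hm hb h0 (A := Ioi (max ((s0 - s) / a) 0)) measurableSet_Ioi
    (Ioi_subset_Ioi (le_max_right _ _)) (by simp) ?_
  intro x hx
  apply hs0
  have h1 : (s0 - s) / a < x := lt_of_le_of_lt (le_max_left _ _) hx
  rw [div_lt_iff₀ ha] at h1
  nlinarith

lemma Op_pos_of_pos {a : ℝ} {f : ℝ → ℝ} (hm : Measurable f)
    (hb : ∀ s, |f s| ≤ 1) (hpos : ∀ s, 0 < f s) (s : ℝ) : 0 < Op a f s := by
  refine Op_pos_of_support hm hb (fun s => (hpos s).le) (A := Ioi 0) measurableSet_Ioi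
    subset_rfl (by simp) ?_
  intro x _
  exact hpos _

/-- from midpoint concavity and continuity to concavity -/
lemma midpoint_chord {ψ : ℝ → ℝ} (hc : Continuous ψ)
    (hm : ∀ m h, ψ (m - h) + ψ (m + h) ≤ 2 * ψ m) {x y : ℝ} (hx : 0 ≤ ψ x) (hy : 0 ≤ ψ y) :
    ∀ t ∈ Icc x y, 0 ≤ ψ t := by
  intro t0 ht0
  by_contra hneg
  push Not at hneg
  obtain ⟨t1, ht1, hmin⟩ := isCompact_Icc.exists_isMinOn ⟨t0, ht0⟩ hc.continuousOn
  have hM : ψ t1 < 0 := lt_of_le_of_lt (hmin ht0) hneg
  set M := ψ t1 with hMdef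
  set S := Icc x y ∩ ψ ⁻¹' {M} with hS
  have hSclosed : IsClosed S := isClosed_Icc.inter (isClosed_singleton.preimage hc)
  have hSne : S.Nonempty := ⟨t1, ht1, rfl⟩
  have hSbdd : BddBelow S := ⟨x, fun u hu => hu.1.1⟩
  have htS : sInf S ∈ S := hSclosed.csInf_mem hSne hSbdd
  set ts := sInf S with hts
  have hval : ψ ts = M := htS.2
  have hxts : x < ts := by
    refine lt_of_le_of_ne htS.1.1 ?_
    intro h
    rw [← h] at hval
    linarith
  have htsy : ts < y := by
    refine lt_of_le_of_ne htS.1.2 ?_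
    intro h
    rw [h] at hval
    linarith
  set h := min (ts - x) (y - ts) with hh
  have hhpos : 0 < h := lt_min (by linarith) (by linarith)
  have h1 : h ≤ ts - x := min_le_left _ _
  have h2 : h ≤ y - ts := min_le_right _ _
  have hleft : ts - h ∈ Icc x y := ⟨by linarith, by linarith⟩
  have hright : ts + h ∈ Icc x y := ⟨by linarith, by linarith⟩
  have hr : M ≤ ψ (ts + h) := hmin hright
  have hl : M < ψ (ts - h) := by
    refine lt_of_le_of_ne (hmin hleft) ?_
    intro heq
    have : ts - h ∈ S := ⟨hleft, heq.symm⟩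
    have := csInf_le hSbdd this
    linarith
  have := hm ts h
  linarith

lemma concave_of_midpoint {φ : ℝ → ℝ} (hc : Continuous φ)
    (hm : ∀ m h, φ (m - h) + φ (m + h) ≤ 2 * φ m) : ConcaveOn ℝ univ φ := by
  refine concaveOn_of_slope_anti_adjacent convex_univ ?_
  intro x y z _ _ hxy hyz
  have hxz : x < z := hxy.trans hyz
  set ψ : ℝ → ℝ := fun t => φ t - (φ x + (φ z - φ x) / (z - x) * (t - x)) with hψ
  have hψc : Continuous ψ := by
    simp only [hψ]
    fun_prop
  have hψm : ∀ m h, ψ (m - h) + ψ (m + h) ≤ 2 * ψ m := by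
    intro m h
    have := hm m h
    simp only [hψ]
    have e : (φ z - φ x) / (z - x) * (m - h - x) + (φ z - φ x) / (z - x) * (m + h - x)
        = 2 * ((φ z - φ x) / (z - x) * (m - x)) := by ring
    linarith
  have hψx : 0 ≤ ψ x := by simp [hψ]
  have hψz : 0 ≤ ψ z := by
    have : z - x ≠ 0 := by linarith [sub_pos.2 hxz]
    simp only [hψ]
    have e : (φ z - φ x) / (z - x) * (z - x) = φ z - φ x := by field_simp
    rw [e]; linarith
  have hy := midpoint_chord hψc hψm hψx hψz y ⟨hxy.le, hyz.le⟩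
  simp only [hψ] at hy
  have hzx : 0 < z - x := sub_pos.2 hxz
  have hyx : 0 < y - x := sub_pos.2 hxy
  have hzy : 0 < z - y := sub_pos.2 hyz
  rw [div_le_div_iff₀ hzy hyx]
  have hy2 : (φ x + (φ z - φ x) / (z - x) * (y - x)) ≤ φ y := by linarith
  have e2 : (φ x + (φ z - φ x) / (z - x) * (y - x)) * (z - x)
      = φ x * (z - x) + (φ z - φ x) * (y - x) := by
    field_simp
  have h3 := mul_le_mul_of_nonneg_right hy2 hzx.le
  rw [e2] at h3
  nlinarith

lemma concave_log_of_LC {f : ℝ → ℝ} (hc : Continuous f) (hpos : ∀ s, 0 < f s) (hLC : LC f) :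
    ConcaveOn ℝ univ (fun s => log (f s)) := by
  refine concave_of_midpoint (Continuous.log hc fun s => (hpos s).ne') ?_
  intro m h
  by_cases hh : 0 ≤ h
  · have h1 := hLC m m h le_rfl hh
    have h2 : log (f (m - h) * f (m + h)) ≤ log (f m * f m) :=
      log_le_log (mul_pos (hpos _) (hpos _)) h1
    rw [log_mul (hpos _).ne' (hpos _).ne', log_mul (hpos _).ne' (hpos _).ne'] at h2
    linarith
  · push Not at hh
    have h1 := hLC m m (-h) le_rfl (by linarith)
    have h2 : log (f (m - -h) * f (m + -h)) ≤ log (f m * f m) :=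
      log_le_log (mul_pos (hpos _) (hpos _)) h1
    rw [log_mul (hpos _).ne' (hpos _).ne', log_mul (hpos _).ne' (hpos _).ne'] at h2
    have e1 : m - -h = m + h := by ring
    have e2 : m + -h = m - h := by ring
    rw [e1, e2] at h2
    linarith

/-- chord inequalities for a concave function -/
lemma chord_in {s : Set ℝ} {φ : ℝ → ℝ} (hφ : ConcaveOn ℝ s φ) {x y t : ℝ} (hx : x ∈ s) (hy : y ∈ s)
    (hxy : x < y) (h1 : x ≤ t) (h2 : t ≤ y) :
    φ x + (φ y - φ x) / (y - x) * (t - x) ≤ φ t := by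
  have hyx : 0 < y - x := sub_pos.2 hxy
  have a1 : 0 ≤ (y - t) / (y - x) := div_nonneg (by linarith) hyx.le
  have a2 : 0 ≤ (t - x) / (y - x) := div_nonneg (by linarith) hyx.le
  have a3 : (y - t) / (y - x) + (t - x) / (y - x) = 1 := by field_simp; ring
  have h3 := hφ.2 hx hy a1 a2 a3
  have e : ((y - t) / (y - x)) • x + ((t - x) / (y - x)) • y = t := by
    simp only [smul_eq_mul]; field_simp; ring
  rw [e] at h3
  simp only [smul_eq_mul] at h3
  have e2 : φ x + (φ y - φ x) / (y - x) * (t - x)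
      = (y - t) / (y - x) * φ x + (t - x) / (y - x) * φ y := by
    field_simp; ring
  rw [e2]; exact h3

lemma chord_left {s : Set ℝ} {φ : ℝ → ℝ} (hφ : ConcaveOn ℝ s φ) {x y t : ℝ} (hx : x ∈ s) (hy : y ∈ s)
    (ht : t ∈ s) (hxy : x < y) (h1 : t ≤ x) :
    φ t ≤ φ x + (φ y - φ x) / (y - x) * (t - x) := by
  rcases h1.eq_or_lt with rfl | h1
  · simp
  have hyt : 0 < y - t := by linarith
  have hyx : 0 < y - x := sub_pos.2 hxy
  have hxt : 0 < x - t := sub_pos.2 h1
  have h2 := chord_in hφ ht hy (h1.trans hxy) h1.le hxy.le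
  -- φ t + (φ y - φ t)/(y-t) * (x - t) ≤ φ x
  have h3 : φ t * (y - x) + φ y * (x - t) ≤ φ x * (y - t) := by
    have e : (φ t + (φ y - φ t) / (y - t) * (x - t)) * (y - t) = φ t * (y - x) + φ y * (x - t) := by
      field_simp; ring
    have := mul_le_mul_of_nonneg_right h2 hyt.le
    rw [e] at this
    exact this
  have e3 : φ x + (φ y - φ x) / (y - x) * (t - x)
      = (φ x * (y - t) - φ y * (x - t)) / (y - x) := by
    field_simp; ring
  rw [e3, le_div_iff₀ hyx]
  linarith

lemma chord_right {s : Set ℝ} {φ : ℝ → ℝ} (hφ : ConcaveOn ℝ s φ) {x y t : ℝ} (hx : x ∈ s) (hy : y ∈ s)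
    (ht : t ∈ s) (hxy : x < y) (h1 : y ≤ t) :
    φ t ≤ φ x + (φ y - φ x) / (y - x) * (t - x) := by
  rcases h1.eq_or_lt with rfl | h1
  · have : y - x ≠ 0 := (sub_pos.2 hxy).ne'
    field_simp; ring_nf; rfl
  have htx : 0 < t - x := by linarith
  have hyx : 0 < y - x := sub_pos.2 hxy
  have h2 := chord_in hφ hx ht (hxy.trans h1) hxy.le h1.le
  have h3 : φ x * (t - y) + φ t * (y - x) ≤ φ y * (t - x) := by
    have e : (φ x + (φ t - φ x) / (t - x) * (y - x)) * (t - x) = φ x * (t - y) + φ t * (y - x) := by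
      field_simp; ring
    have := mul_le_mul_of_nonneg_right h2 htx.le
    rw [e] at this
    exact this
  have e3 : φ x + (φ y - φ x) / (y - x) * (t - x)
      = (φ y * (t - x) - φ x * (t - y)) / (y - x) := by
    field_simp; ring
  rw [e3, le_div_iff₀ hyx]
  linarith

/-- existence of a supporting line of a concave function on the line -/
lemma exists_support_line {φ : ℝ → ℝ} (hφ : ConcaveOn ℝ univ φ) (c : ℝ) :
    ∃ m : ℝ, ∀ t, φ t ≤ φ c + m * (t - c) := by
  set S := (fun z => (φ z - φ c) / (z - c)) '' Ioi c with hS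
  have hSne : S.Nonempty := ⟨_, c + 1, by simp, rfl⟩
  have hleft : ∀ y, y < c → ∀ z, c < z → (φ z - φ c) / (z - c) ≤ (φ c - φ y) / (c - y) := by
    intro y hy z hz
    have := hφ.slope_anti_adjacent (mem_univ y) (mem_univ z) hy hz
    exact this
  have hSb : BddAbove S := by
    refine ⟨(φ c - φ (c - 1)) / (c - (c - 1)), ?_⟩
    rintro _ ⟨z, hz, rfl⟩
    exact hleft (c - 1) (by linarith) z hz
  refine ⟨sSup S, fun t => ?_⟩
  rcases lt_trichotomy t c with ht | ht | ht
  · have h1 : sSup S ≤ (φ c - φ t) / (c - t) := by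
      refine csSup_le hSne ?_
      rintro _ ⟨z, hz, rfl⟩
      exact hleft t ht z hz
    rw [le_div_iff₀ (sub_pos.2 ht)] at h1
    nlinarith
  · subst ht; simp
  · have h1 : (φ t - φ c) / (t - c) ≤ sSup S := le_csSup hSb ⟨t, ht, rfl⟩
    rw [div_le_iff₀ (sub_pos.2 ht)] at h1
    linarith

end

end Crest.Agent.S0423Lib
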