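import Mathlib
import Crest.Prelude.Def_TruncExpWeight
import Crest.Agent.S0423Lib.LogConc

set_option autoImplicit false

namespace Crest.Agent.S0423Lib

open MeasureTheory Set Real Filter Topology

noncomputable section

/-- the weight `t e^{-t}` on the positive axis -/
def w (t : ℝ) : ℝ := max t 0 * exp (-t)

def ind0 (t : ℝ) : ℝ := if t < 0 then 1 else 0

lemma w_cont : Continuous w := by
  unfold w
  exact (continuous_id.max continuous_const).mul (by fun_prop)

lemma w_of_nonpos {t : ℝ} (h : t ≤ 0) : w t = 0 := by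
  simp [w, max_eq_right h]

lemma w_of_nonneg {t : ℝ} (h : 0 ≤ t) : w t = t * exp (-t) := by
  simp [w, max_eq_left h]

lemma w_nonneg (t : ℝ) : 0 ≤ w t := mul_nonneg (le_max_right _ _) (exp_pos _).le

lemma w_le_one (t : ℝ) : w t ≤ 1 := by
  rcases le_total t 0 with h | h
  · rw [w_of_nonpos h]; exact zero_le_one
  · rw [w_of_nonneg h, exp_neg, ← div_eq_mul_inv, div_le_one (exp_pos _)]
    linarith [add_one_le_exp t]

lemma ind0_meas : Measurable ind0 := by
  unfold ind0
  exact Measurable.ite measurableSet_Iio measurable_const measurable_const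

lemma w_mul_ind0 (t : ℝ) : w t * ind0 t = 0 := by
  unfold ind0
  split_ifs with h
  · rw [w_of_nonpos h.le]; ring
  · ring

lemma t_exp_hasDeriv {κ : ℝ} (hκ : 0 < κ) (t : ℝ) :
    HasDerivAt (fun t => -(t / κ + 1 / κ ^ 2) * exp (-(κ * t))) (t * exp (-(κ * t))) t := by
  have h1 : HasDerivAt (fun t => -(t / κ + 1 / κ ^ 2)) (-(1 / κ)) t := by
    have h := ((hasDerivAt_id' t).div_const κ).add_const (1 / κ ^ 2)
    exact h.neg
  have h2 : HasDerivAt (fun t => exp (-(κ * t))) (exp (-(κ * t)) * (-(κ * 1))) t := by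
    have := ((hasDerivAt_id t).const_mul κ).neg.exp
    simpa using this
  have h3 := h1.fun_mul h2
  have e : t * exp (-(κ * t)) = -(1 / κ) * exp (-(κ * t))
      + -(t / κ + 1 / κ ^ 2) * (exp (-(κ * t)) * -(κ * 1)) := by
    field_simp
    ring
  rw [e]
  exact h3

lemma t_exp_tendsto {κ : ℝ} (hκ : 0 < κ) :
    Tendsto (fun t => -(t / κ + 1 / κ ^ 2) * exp (-(κ * t))) atTop (𝓝 0) := by
  have h1 : Tendsto (fun t : ℝ => t * exp (-κ * t)) atTop (𝓝 0) := by
    have := tendsto_rpow_mul_exp_neg_mul_atTop_nhds_zero 1 κ hκ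
    simpa using this
  have h2 : Tendsto (fun t : ℝ => exp (-κ * t)) atTop (𝓝 0) := by
    have := tendsto_rpow_mul_exp_neg_mul_atTop_nhds_zero 0 κ hκ
    simpa using this
  have h3 := (h1.const_mul (-(1 / κ))).add (h2.const_mul (-(1 / κ ^ 2)))
  simp only [mul_zero, add_zero] at h3
  refine h3.congr fun t => ?_
  have : -(κ * t) = -κ * t := by ring
  rw [this]
  field_simp
  ring

lemma t_exp_integrableOn {κ : ℝ} (hκ : 0 < κ) {T : ℝ} (hT : 0 ≤ T) :
    IntegrableOn (fun t => t * exp (-(κ * t))) (Ioi T) := by
  refine integrableOn_Ioi_deriv_of_nonneg' (fun t _ => t_exp_hasDeriv hκ t) ?_ (t_exp_tendsto hκ)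
  intro x hx
  have : T < x := hx
  exact mul_nonneg (by linarith) (exp_pos _).le

lemma t_exp_integral {κ : ℝ} (hκ : 0 < κ) {T : ℝ} (hT : 0 ≤ T) :
    ∫ t in Ioi T, t * exp (-(κ * t)) = (T / κ + 1 / κ ^ 2) * exp (-(κ * T)) := by
  rw [integral_Ioi_of_hasDerivAt_of_nonneg' (fun t _ => t_exp_hasDeriv hκ t) ?_ (t_exp_tendsto hκ)]
  · ring
  · intro x hx
    have : T < x := hx
    exact mul_nonneg (by linarith) (exp_pos _).le

lemma w_integrable : Integrable w := by
  have h1 : IntegrableOn w (Ioi 0) := by
    refine (t_exp_integrableOn (κ := 1) one_pos le_rfl).congr_fun ?_ measurableSet_Ioi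
    intro t ht
    simp only [one_mul]
    rw [w_of_nonneg (le_of_lt ht)]
  have h2 : IntegrableOn w (Iic 0) := by
    have : IntegrableOn (fun _ : ℝ => (0 : ℝ)) (Iic 0) := integrableOn_zero
    refine this.congr_fun ?_ measurableSet_Iic
    intro t ht
    rw [w_of_nonpos ht]
  have := h2.union h1
  rwa [Iic_union_Ioi, integrableOn_univ] at this

lemma w_integral : ∫ t, w t = 1 := by
  have h2 : ∫ t in Iic (0 : ℝ), w t = 0 :=
    setIntegral_eq_zero_of_forall_eq_zero fun t ht => w_of_nonpos ht
  rw [← intervalIntegral.integral_Iic_add_Ioi (w_integrable.integrableOn) (w_integrable.integrableOn), h2, zero_add]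
  have h3 : ∫ t in Ioi (0 : ℝ), w t = ∫ t in Ioi (0 : ℝ), t * exp (-(1 * t)) := by
    refine setIntegral_congr_fun measurableSet_Ioi fun t ht => ?_
    simp only [one_mul]
    rw [w_of_nonneg (le_of_lt ht)]
  rw [h3, t_exp_integral one_pos le_rfl]
  simp

/-- the integral representation of the weight -/
lemma g_eq (y : ℝ) :
    Crest.AlgGeometry.truncExpWeight y = 1 - ∫ t in (0 : ℝ)..y, w t := by
  unfold Crest.AlgGeometry.truncExpWeight
  split_ifs with h
  · have : ∫ t in (0 : ℝ)..y, w t = ∫ t in (0 : ℝ)..y, (0 : ℝ) := by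
      refine intervalIntegral.integral_congr fun t ht => ?_
      rw [uIcc_of_ge h] at ht
      exact w_of_nonpos ht.2
    rw [this]; simp
  · push Not at h
    have h1 : ∫ t in (0 : ℝ)..y, w t = ∫ t in (0 : ℝ)..y, t * exp (-(1 * t)) := by
      refine intervalIntegral.integral_congr fun t ht => ?_
      rw [uIcc_of_le h.le] at ht
      simp only [one_mul]
      exact w_of_nonneg ht.1
    rw [h1, intervalIntegral.integral_eq_sub_of_hasDerivAt (fun t _ => t_exp_hasDeriv one_pos t)
      (Continuous.intervalIntegrable (by fun_prop) _ _)]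
    simp
    ring

section Layer

variable {Ω : Type*} [MeasurableSpace Ω] {μ : Measure Ω} [IsProbabilityMeasure μ]

/-- the layer kernel -/
def qk (y t : ℝ) : ℝ := (if t < y then 1 else 0) - ind0 t

lemma qk_of_nonneg {y : ℝ} (hy : 0 ≤ y) (t : ℝ) : qk y t = (Ico 0 y).indicator 1 t := by
  unfold qk ind0
  by_cases h1 : t < 0
  · have h2 : t < y := by linarith
    have h3 : t ∉ Ico 0 y := fun h => by linarith [h.1]
    simp [h1, h2, h3]
  · by_cases h2 : t < y
    · have h3 : t ∈ Ico 0 y := ⟨by linarith, h2⟩
      simp [h1, h2, h3]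
    · have h3 : t ∉ Ico 0 y := fun h => h2 h.2
      simp [h1, h2, h3]

lemma qk_of_nonpos {y : ℝ} (hy : y ≤ 0) (t : ℝ) : qk y t = -(Ico y 0).indicator 1 t := by
  unfold qk ind0
  by_cases h1 : t < y
  · have h2 : t < 0 := by linarith
    have h3 : t ∉ Ico y 0 := fun h => by linarith [h.1]
    simp [h1, h2, h3]
  · by_cases h2 : t < 0
    · have h3 : t ∈ Ico y 0 := ⟨by linarith, h2⟩
      simp [h1, h2, h3]
    · have h3 : t ∉ Ico y 0 := fun h => h2 h.2
      simp [h1, h2, h3]

lemma qk_facts {G : ℝ → ℝ} (hG : Continuous G) {M : ℝ} (hM : ∀ t, |G t| ≤ M) (y : ℝ) :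
    Integrable (fun t => G t * qk y t) ∧ ∫ t, G t * qk y t = ∫ t in (0 : ℝ)..y, G t ∧
    ∫ t, ‖G t * qk y t‖ ≤ M * |y| := by
  have hM0 : 0 ≤ M := (abs_nonneg _).trans (hM 0)
  rcases le_total 0 y with hy | hy
  · have e : (fun t => G t * qk y t) = (Ico 0 y).indicator G := by
      funext t
      rw [qk_of_nonneg hy]
      by_cases h : t ∈ Ico 0 y <;> simp [h]
    have hint : IntegrableOn G (Ico 0 y) :=
      (hG.continuousOn.integrableOn_Icc).mono_set Ico_subset_Icc_self
    refine ⟨?_, ?_, ?_⟩
    · rw [e]; exact hint.integrable_indicator measurableSet_Ico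
    · rw [e, integral_indicator measurableSet_Ico, intervalIntegral.integral_of_le hy,
        integral_Ico_eq_integral_Ioc]
    · have e' : ∀ t, G t * qk y t = (Ico 0 y).indicator G t := fun t => congrFun e t
      simp_rw [e']
      have : ∀ t, ‖(Ico 0 y).indicator G t‖ ≤ (Ico 0 y).indicator (fun _ => M) t := by
        intro t
        by_cases h : t ∈ Ico 0 y
        · simp only [h, indicator_of_mem, Real.norm_eq_abs]; exact hM t
        · simp [h]
      have hint2 : Integrable ((Ico 0 y).indicator (fun _ => M)) :=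
        (integrable_indicator_iff measurableSet_Ico).2 (by simp)
      calc ∫ t, ‖(Ico 0 y).indicator G t‖
          ≤ ∫ t, (Ico 0 y).indicator (fun _ => M) t :=
            integral_mono (hint.integrable_indicator measurableSet_Ico).norm hint2 this
        _ = M * |y| := by
            rw [integral_indicator measurableSet_Ico, setIntegral_const]
            simp [measureReal_def, abs_of_nonneg hy, hy, mul_comm]
  · have e : (fun t => G t * qk y t) = fun t => -(Ico y 0).indicator G t := by
      funext t
      rw [qk_of_nonpos hy]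
      by_cases h : t ∈ Ico y 0 <;> simp [h]
    have hint : IntegrableOn G (Ico y 0) :=
      (hG.continuousOn.integrableOn_Icc).mono_set Ico_subset_Icc_self
    refine ⟨?_, ?_, ?_⟩
    · rw [e]; exact (hint.integrable_indicator measurableSet_Ico).neg
    · rw [e, integral_neg, integral_indicator measurableSet_Ico, intervalIntegral.integral_symm,
        intervalIntegral.integral_of_le hy, integral_Ico_eq_integral_Ioc]
    · have e' : ∀ t, G t * qk y t = -(Ico y 0).indicator G t := fun t => congrFun e t
      simp_rw [e']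
      have : ∀ t, ‖-(Ico y 0).indicator G t‖ ≤ (Ico y 0).indicator (fun _ => M) t := by
        intro t
        by_cases h : t ∈ Ico y 0
        · simp only [h, indicator_of_mem, norm_neg, Real.norm_eq_abs]; exact hM t
        · simp [h]
      have hint2 : Integrable ((Ico y 0).indicator (fun _ => M)) :=
        (integrable_indicator_iff measurableSet_Ico).2 (by simp)
      calc ∫ t, ‖-(Ico y 0).indicator G t‖
          ≤ ∫ t, (Ico y 0).indicator (fun _ => M) t :=
            integral_mono (hint.integrable_indicator measurableSet_Ico).neg.norm hint2 this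
        _ = M * |y| := by
            rw [integral_indicator measurableSet_Ico, setIntegral_const]
            simp [measureReal_def, abs_of_nonpos hy, hy, mul_comm]

/-- The layer-cake identity for a continuous bounded weight. -/
theorem layer {Y : Ω → ℝ} (hYm : Measurable Y) (hYi : Integrable Y μ) {G : ℝ → ℝ}
    (hG : Continuous G) {M : ℝ} (hM : ∀ t, |G t| ≤ M) :
    Integrable (fun t => G t * (μ.real {ω | t < Y ω} - ind0 t)) ∧
    ∫ ω, (∫ t in (0 : ℝ)..Y ω, G t) ∂μ = ∫ t, G t * (μ.real {ω | t < Y ω} - ind0 t) := by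
  set Φ : Ω → ℝ → ℝ := fun ω t => G t * qk (Y ω) t with hΦ
  have hmeas : Measurable (Function.uncurry Φ) := by
    have h1 : Measurable (fun p : Ω × ℝ => G p.2) := hG.measurable.comp measurable_snd
    have h2 : Measurable (fun p : Ω × ℝ => qk (Y p.1) p.2) := by
      unfold qk
      refine Measurable.sub ?_ (ind0_meas.comp measurable_snd)
      exact Measurable.ite (measurableSet_lt measurable_snd (hYm.comp measurable_fst))
        measurable_const measurable_const
    exact h1.mul h2
  have hint : Integrable (Function.uncurry Φ) (μ.prod volume) := by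
    rw [integrable_prod_iff hmeas.aestronglyMeasurable]
    refine ⟨Eventually.of_forall fun ω => (qk_facts hG hM (Y ω)).1, ?_⟩
    refine Integrable.mono' (hYi.abs.const_mul M) ?_ (Eventually.of_forall fun ω => ?_)
    · exact hmeas.aestronglyMeasurable.norm.integral_prod_right'
    · have := (qk_facts hG hM (Y ω)).2.2
      have h0 : 0 ≤ ∫ t, ‖Function.uncurry Φ (ω, t)‖ :=
        integral_nonneg fun _ => norm_nonneg _
      rw [Real.norm_eq_abs, abs_of_nonneg h0]
      exact this
  have hinner : ∀ t, ∫ ω, Φ ω t ∂μ = G t * (μ.real {ω | t < Y ω} - ind0 t) := by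
    intro t
    simp only [hΦ]
    rw [integral_const_mul]
    congr 1
    unfold qk
    have hset : MeasurableSet {ω | t < Y ω} := measurableSet_lt measurable_const hYm
    have h1 : (fun ω => (if t < Y ω then (1 : ℝ) else 0)) = {ω | t < Y ω}.indicator 1 := by
      funext ω
      by_cases h : t < Y ω <;> simp [h]
    rw [integral_sub (by
        rw [h1]
        exact (integrable_const (1 : ℝ)).indicator hset) (integrable_const _), h1,
      integral_indicator_one hset]
    simp
  have hswap := integral_integral_swap (f := Φ) hint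
  constructor
  · have := hint.integral_prod_right
    refine this.congr (Eventually.of_forall fun t => ?_)
    exact hinner t
  · have e1 : ∀ ω, ∫ t in (0 : ℝ)..Y ω, G t = ∫ t, Φ ω t := fun ω =>
      ((qk_facts hG hM (Y ω)).2.1).symm
    simp_rw [e1]
    rw [hswap]
    simp_rw [hinner]

end Layer

end

end Crest.Agent.S0423Lib
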