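import Mathlib
import Crest.Prelude.Def_TruncExpWeight
import Crest.Agent.S0423Lib.Layer

set_option autoImplicit false

namespace Crest.Agent.S0423Lib

open MeasureTheory Set Real Filter Topology ProbabilityTheory

noncomputable section

/-- the exponential law -/
def ρ : Measure ℝ := (volume.restrict (Ioi 0)).withDensity (fun x => ENNReal.ofReal (exp (-x)))

lemma ρ_integral (f : ℝ → ℝ) : ∫ x, f x ∂ρ = ∫ x in Ioi 0, f x * exp (-x) := by
  unfold ρ
  rw [integral_withDensity_eq_integral_toReal_smul (by fun_prop)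
    (Eventually.of_forall fun _ => ENNReal.ofReal_lt_top)]
  refine setIntegral_congr_fun measurableSet_Ioi fun x _ => ?_
  simp [ENNReal.toReal_ofReal (exp_pos _).le, mul_comm]

instance ρ_prob : IsProbabilityMeasure ρ := ⟨by
  unfold ρ
  rw [withDensity_apply _ MeasurableSet.univ, Measure.restrict_univ,
    ← ofReal_integral_eq_lintegral_ofReal (integrableOn_exp_neg_Ioi 0)
      (Eventually.of_forall fun _ => (exp_pos _).le), integral_exp_neg_Ioi_zero]
  simp⟩

lemma ρ_integrable_iff (f : ℝ → ℝ) :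
    Integrable f ρ ↔ IntegrableOn (fun x => f x * exp (-x)) (Ioi 0) := by
  unfold ρ
  rw [integrable_withDensity_iff (by fun_prop) (Eventually.of_forall fun _ => ENNReal.ofReal_lt_top)]
  unfold IntegrableOn
  refine integrable_congr (Eventually.of_forall fun x => ?_)
  simp [ENNReal.toReal_ofReal (exp_pos _).le]

lemma ρ_id_integrable : Integrable (fun x : ℝ => x) ρ := by
  rw [ρ_integrable_iff]
  have := t_exp_integrableOn (κ := 1) one_pos le_rfl
  simpa using this

lemma ρ_id_integral : ∫ x, x ∂ρ = 1 := by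
  rw [ρ_integral]
  have := t_exp_integral (κ := 1) one_pos le_rfl
  simpa using this

lemma t2_exp_hasDeriv (t : ℝ) :
    HasDerivAt (fun t => -(t ^ 2 + 2 * t + 2) * exp (-t)) (t ^ 2 * exp (-t)) t := by
  have h1 : HasDerivAt (fun t : ℝ => -(t ^ 2 + 2 * t + 2)) (-(2 * t + 2)) t := by
    have h := (((hasDerivAt_pow 2 t).add ((hasDerivAt_id' t).const_mul 2)).add_const 2).neg
    have e : -(2 * t + 2) = -(((2 : ℕ) : ℝ) * t ^ (2 - 1) + 2 * 1) := by norm_num
    rw [e]
    exact h
  have h2 : HasDerivAt (fun t => exp (-t)) (exp (-t) * (-1)) t := by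
    have := (hasDerivAt_id' t).neg.exp
    simpa using this
  have h3 := h1.fun_mul h2
  have e : t ^ 2 * exp (-t) = -(2 * t + 2) * exp (-t) + -(t ^ 2 + 2 * t + 2) * (exp (-t) * (-1)) := by
    ring
  rw [e]
  exact h3

lemma t2_exp_tendsto :
    Tendsto (fun t : ℝ => -(t ^ 2 + 2 * t + 2) * exp (-t)) atTop (𝓝 0) := by
  have h0 : ∀ n : ℕ, Tendsto (fun t : ℝ => t ^ n * exp (-t)) atTop (𝓝 0) :=
    tendsto_pow_mul_exp_neg_atTop_nhds_zero
  have h3 := ((h0 2).const_mul (-1)).add (((h0 1).const_mul (-2)).add ((h0 0).const_mul (-2)))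
  simp only [mul_zero, add_zero] at h3
  refine h3.congr fun t => ?_
  ring

lemma t2_exp_integrableOn : IntegrableOn (fun t : ℝ => t ^ 2 * exp (-t)) (Ioi 0) := by
  refine integrableOn_Ioi_deriv_of_nonneg' (fun t _ => t2_exp_hasDeriv t) ?_ t2_exp_tendsto
  intro x _
  positivity

lemma t2_exp_integral : ∫ t in Ioi (0 : ℝ), t ^ 2 * exp (-t) = 2 := by
  rw [integral_Ioi_of_hasDerivAt_of_nonneg' (fun t _ => t2_exp_hasDeriv t) ?_ t2_exp_tendsto]
  · simp
  · intro x _
    positivity

lemma ρ_sq_integrable : Integrable (fun x : ℝ => x ^ 2) ρ := by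
  rw [ρ_integrable_iff]
  exact t2_exp_integrableOn

lemma ρ_sq_integral : ∫ x, x ^ 2 ∂ρ = 2 := by
  rw [ρ_integral]
  exact t2_exp_integral

lemma ρ_id_memLp : MemLp (fun x : ℝ => x) 2 ρ :=
  (memLp_two_iff_integrable_sq (by fun_prop)).2 ρ_sq_integrable

lemma ρ_variance : Var[(fun x : ℝ => x); ρ] = 1 := by
  rw [variance_eq_sub ρ_id_memLp]
  simp only [Pi.pow_apply]
  rw [ρ_sq_integral, ρ_id_integral]
  norm_num

lemma ρ_Ioi (u : ℝ) : ρ.real (Ioi u) = exp (-max u 0) := by
  have h1 : ∫ x, (Ioi u).indicator (1 : ℝ → ℝ) x ∂ρ = ρ.real (Ioi u) :=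
    integral_indicator_one measurableSet_Ioi
  rw [← h1, ρ_integral]
  have h2 : ∀ x, (Ioi u).indicator (1 : ℝ → ℝ) x * exp (-x) =
      (Ioi u).indicator (fun x => exp (-x)) x := by
    intro x
    by_cases h : x ∈ Ioi u <;> simp [h]
  simp_rw [h2]
  rw [setIntegral_indicator measurableSet_Ioi]
  have h3 : Ioi (0 : ℝ) ∩ Ioi u = Ioi (max u 0) := by
    ext x
    simp only [mem_inter_iff, mem_Ioi, max_lt_iff]
    tauto
  rw [h3, integral_exp_neg_Ioi]

/-- The comparator survival function. -/
def comp (ts b t : ℝ) : ℝ := if t ≤ ts then 1 else exp (-(t - ts) / b)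

lemma comp_nonneg (ts b t : ℝ) : 0 ≤ comp ts b t := by
  unfold comp
  split_ifs
  · exact zero_le_one
  · exact (exp_pos _).le

lemma comp_le_one {ts b : ℝ} (hb : 0 < b) (t : ℝ) : comp ts b t ≤ 1 := by
  unfold comp
  split_ifs with h
  · exact le_rfl
  · push Not at h
    rw [exp_le_one_iff]
    exact div_nonpos_of_nonpos_of_nonneg (by linarith) hb.le

lemma ρ_real_comp (ts : ℝ) {b : ℝ} (hb : 0 < b) (t : ℝ) :
    ρ.real {x | t < ts + b * x} = comp ts b t := by
  have h1 : {x : ℝ | t < ts + b * x} = Ioi ((t - ts) / b) := by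
    ext x
    simp only [mem_setOf_eq, mem_Ioi, div_lt_iff₀ hb]
    constructor <;> intro h <;> linarith
  rw [h1, ρ_Ioi]
  unfold comp
  split_ifs with h
  · have : (t - ts) / b ≤ 0 := div_nonpos_of_nonpos_of_nonneg (by linarith) hb.le
    rw [max_eq_right this]; simp
  · push Not at h
    have : 0 ≤ (t - ts) / b := div_nonneg (by linarith) hb.le
    rw [max_eq_left this]
    congr 1
    ring

lemma affine_integrable (ts b : ℝ) : Integrable (fun x : ℝ => ts + b * x) ρ :=
  (integrable_const _).add (ρ_id_integrable.const_mul b)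

lemma comp_layer_one (ts : ℝ) {b : ℝ} (hb : 0 < b) :
    Integrable (fun t => comp ts b t - ind0 t) ∧ ∫ t, (comp ts b t - ind0 t) = ts + b := by
  have h := layer (μ := ρ) (Y := fun x => ts + b * x) (by fun_prop) (affine_integrable ts b)
    (G := fun _ => 1) continuous_const (M := 1) (fun _ => by simp)
  simp only [one_mul, ρ_real_comp ts hb] at h
  refine ⟨h.1, ?_⟩
  rw [← h.2]
  simp only [intervalIntegral.integral_const, sub_zero, smul_eq_mul, mul_one]
  rw [integral_add (integrable_const _) (ρ_id_integrable.const_mul b), integral_const_mul,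
    ρ_id_integral]
  simp

lemma comp_meas (ts b : ℝ) : Measurable (comp ts b) := by
  unfold comp
  exact Measurable.ite measurableSet_Iic measurable_const (by fun_prop)

lemma w_mul_bdd_integrable {R : ℝ → ℝ} (hm : Measurable R) (h0 : ∀ t, 0 ≤ R t) (h1 : ∀ t, R t ≤ 1) :
    Integrable (fun t => w t * R t) := by
  refine Integrable.mono' w_integrable (w_cont.measurable.mul hm).aestronglyMeasurable
    (Eventually.of_forall fun t => ?_)
  rw [Real.norm_eq_abs, abs_of_nonneg (mul_nonneg (w_nonneg t) (h0 t))]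
  exact mul_le_of_le_one_right (w_nonneg t) (h1 t)

/-- value of the weighted integral of a comparator: shift at most zero -/
lemma J_formula1 {ts b : ℝ} (hb : 0 < b) (hts : ts ≤ 0) :
    ∫ t, w t * comp ts b t = exp (ts / b) * (b / (1 + b)) ^ 2 := by
  have hint := w_mul_bdd_integrable (comp_meas ts b) (comp_nonneg ts b) (comp_le_one hb)
  rw [← intervalIntegral.integral_Iic_add_Ioi hint.integrableOn hint.integrableOn]
  have h2 : ∫ t in Iic (0 : ℝ), w t * comp ts b t = 0 :=
    setIntegral_eq_zero_of_forall_eq_zero fun t ht => by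
      rw [w_of_nonpos ht, zero_mul]
  rw [h2, zero_add]
  have hκ : 0 < 1 + 1 / b := by positivity
  have h3 : ∫ t in Ioi (0 : ℝ), w t * comp ts b t
      = ∫ t in Ioi (0 : ℝ), exp (ts / b) * (t * exp (-((1 + 1 / b) * t))) := by
    refine setIntegral_congr_fun measurableSet_Ioi fun t ht => ?_
    have ht' : (0 : ℝ) < t := ht
    rw [w_of_nonneg ht'.le]
    unfold comp
    rw [if_neg (by linarith)]
    have : -t + -(t - ts) / b = ts / b + -((1 + 1 / b) * t) := by
      field_simp
      ring
    calc t * exp (-t) * exp (-(t - ts) / b) = t * exp (-t + -(t - ts) / b) := by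
          rw [exp_add]; ring
      _ = exp (ts / b) * (t * exp (-((1 + 1 / b) * t))) := by
          rw [this, exp_add]; ring
  rw [h3, integral_const_mul, t_exp_integral hκ le_rfl]
  have e : (1 + 1 / b) = (1 + b) / b := by field_simp; ring
  rw [e]
  simp only [mul_zero, neg_zero, exp_zero, mul_one, zero_div, zero_add]
  field_simp

/-- value of the weighted integral of a comparator: positive shift -/
lemma J_formula2 {ts b : ℝ} (hb : 0 < b) (hts : 0 ≤ ts) :
    ∫ t, w t * comp ts b t =
      1 - exp (-ts) * (1 + ts - ts * (b / (1 + b)) - (b / (1 + b)) ^ 2) := by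
  have hint := w_mul_bdd_integrable (comp_meas ts b) (comp_nonneg ts b) (comp_le_one hb)
  rw [← intervalIntegral.integral_Iic_add_Ioi hint.integrableOn hint.integrableOn]
  have h2 : ∫ t in Iic (0 : ℝ), w t * comp ts b t = 0 :=
    setIntegral_eq_zero_of_forall_eq_zero fun t ht => by
      rw [w_of_nonpos ht, zero_mul]
  rw [h2, zero_add]
  have hκ : 0 < 1 + 1 / b := by positivity
  -- split at ts
  rw [← intervalIntegral.integral_interval_add_Ioi (a := 0) (b := ts) hint.integrableOn
    hint.integrableOn]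
  have h3 : ∫ t in (0 : ℝ)..ts, w t * comp ts b t = ∫ t in (0 : ℝ)..ts, t * exp (-(1 * t)) := by
    refine intervalIntegral.integral_congr fun t ht => ?_
    rw [uIcc_of_le hts] at ht
    simp only [one_mul]
    rw [w_of_nonneg ht.1]
    unfold comp
    rw [if_pos ht.2, mul_one]
  rw [h3, intervalIntegral.integral_eq_sub_of_hasDerivAt (fun t _ => t_exp_hasDeriv one_pos t)
      (Continuous.intervalIntegrable (by fun_prop) _ _)]
  have h4 : ∫ t in Ioi ts, w t * comp ts b t
      = ∫ t in Ioi ts, exp (ts / b) * (t * exp (-((1 + 1 / b) * t))) := by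
    refine setIntegral_congr_fun measurableSet_Ioi fun t ht => ?_
    have ht' : ts < t := ht
    rw [w_of_nonneg (by linarith)]
    unfold comp
    rw [if_neg (by linarith)]
    have : -t + -(t - ts) / b = ts / b + -((1 + 1 / b) * t) := by
      field_simp
      ring
    calc t * exp (-t) * exp (-(t - ts) / b) = t * exp (-t + -(t - ts) / b) := by
          rw [exp_add]; ring
      _ = exp (ts / b) * (t * exp (-((1 + 1 / b) * t))) := by
          rw [this, exp_add]; ring
  rw [h4, integral_const_mul, t_exp_integral hκ hts]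
  have e : (1 + 1 / b) = (1 + b) / b := by field_simp; ring
  have e2 : exp (ts / b) * exp (-((1 + 1 / b) * ts)) = exp (-ts) := by
    rw [← exp_add]
    congr 1
    field_simp
    ring
  have e3 : exp (ts / b) * ((ts / (1 + 1 / b) + 1 / (1 + 1 / b) ^ 2) * exp (-((1 + 1 / b) * ts)))
      = exp (-ts) * (ts * (b / (1 + b)) + (b / (1 + b)) ^ 2) := by
    rw [← e2, e]
    have e4 : ts / ((1 + b) / b) = ts * (b / (1 + b)) := by field_simp
    have e5 : 1 / ((1 + b) / b) ^ 2 = (b / (1 + b)) ^ 2 := by field_simp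
    rw [e4, e5]
    ring
  rw [e3]
  simp only [neg_add_rev, one_mul, neg_zero, exp_zero, mul_one, zero_div, zero_add]
  ring

end

end Crest.Agent.S0423Lib
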