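import Mathlib
import Crest.Prelude.Def_TruncExpWeight
import Crest.Agent.S0423Lib.Expo

set_option autoImplicit false

namespace Crest.Agent.S0423Lib

open MeasureTheory Set Real Filter Topology

noncomputable section

/-- comparators of mean `4/3` -/
def C (b t : ℝ) : ℝ := comp (4 / 3 - b) b t

lemma C_le_exp {b : ℝ} (hb : 0 < b) (t : ℝ) : C b t ≤ exp (-1 - (t - 4 / 3) / b) := by
  unfold C comp
  split_ifs with h
  · rw [one_le_exp_iff]
    have : (t - 4 / 3) / b ≤ -1 := by
      rw [div_le_iff₀ hb]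
      linarith
    linarith
  · have : -(t - (4 / 3 - b)) / b = -1 - (t - 4 / 3) / b := by
      field_simp
      ring
    rw [this]

lemma le_C {b : ℝ} (hb : 0 < b) {r t : ℝ} (h1 : r ≤ 1) (h2 : r ≤ exp (-1 - (t - 4 / 3) / b)) :
    r ≤ C b t := by
  unfold C comp
  split_ifs with h
  · exact h1
  · have : -(t - (4 / 3 - b)) / b = -1 - (t - 4 / 3) / b := by
      field_simp
      ring
    rw [this]
    exact h2

lemma C_nonneg (b t : ℝ) : 0 ≤ C b t := comp_nonneg _ _ _

lemma C_le_one {b : ℝ} (hb : 0 < b) (t : ℝ) : C b t ≤ 1 := comp_le_one hb t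

lemma C_meas (b : ℝ) : Measurable (C b) := comp_meas _ _

lemma exp_neg_third_le : exp (-(1 / 3)) ≤ 18 / 25 := by
  rw [exp_neg]
  have h := quadratic_le_exp_of_nonneg (x := 1 / 3) (by norm_num)
  rw [inv_le_comm₀ (exp_pos _) (by norm_num)]
  norm_num at h ⊢
  linarith

lemma poly_bound {b s : ℝ} (hb : 0 < b) (hs : 0 ≤ s) (hbs : s = 4 / 3 - b) :
    11 / 3 + s / 3 - s ^ 2 ≤ 17 / 25 * (1 + s + s ^ 2 / 2 + s ^ 3 / 6) * (1 + b) ^ 2 := by
  subst hbs
  nlinarith [pow_pos hb 5, pow_pos hb 4, pow_pos hb 3, pow_pos hb 2, hb,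
    mul_nonneg hs (pow_pos hb 4).le, mul_nonneg (pow_nonneg hs 2) (pow_pos hb 3).le,
    mul_nonneg (pow_nonneg hs 3) (pow_pos hb 2).le, mul_nonneg (pow_nonneg hs 4) hb.le,
    pow_nonneg hs 5, pow_nonneg hs 4, pow_nonneg hs 3, pow_nonneg hs 2]

/-- The key one-variable inequality. -/
lemma J_ge {b : ℝ} (hb : 0 < b) : 4 / 9 * exp (-(1 / 3)) ≤ ∫ t, w t * C b t := by
  unfold C
  rcases le_total (4 / 3) b with hc | hc
  · rw [J_formula1 hb (by linarith)]
    set y : ℝ := (2 / b - 1) / 3 with hy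
    have h1 : 1 + y ≤ exp y := by linarith [add_one_le_exp y]
    have h2 : 1 + y = 2 / 3 * ((1 + b) / b) := by
      simp only [hy]
      field_simp
      ring
    have h3 : 2 / 3 ≤ exp y * (b / (1 + b)) := by
      have h4 : 0 < b / (1 + b) := by positivity
      calc (2 : ℝ) / 3 = (2 / 3 * ((1 + b) / b)) * (b / (1 + b)) := by
            field_simp
        _ ≤ exp y * (b / (1 + b)) := by
            rw [← h2]
            exact mul_le_mul_of_nonneg_right h1 h4.le
    have h5 : (4 / 9 : ℝ) ≤ (exp y * (b / (1 + b))) ^ 2 := by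
      have := pow_le_pow_left₀ (by norm_num : (0 : ℝ) ≤ 2 / 3) h3 2
      norm_num at this ⊢
      linarith
    have h6 : exp ((4 / 3 - b) / b) = exp y ^ 2 * exp (-(1 / 3)) := by
      rw [← exp_nat_mul, ← exp_add]
      congr 1
      simp only [hy]
      push_cast
      field_simp
      ring
    rw [h6]
    have h7 : exp y ^ 2 * exp (-(1 / 3)) * (b / (1 + b)) ^ 2
        = (exp y * (b / (1 + b))) ^ 2 * exp (-(1 / 3)) := by ring
    rw [h7]
    exact mul_le_mul_of_nonneg_right h5 (exp_pos _).le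
  · have hs : 0 ≤ 4 / 3 - b := by linarith
    rw [J_formula2 hb hs]
    set s := 4 / 3 - b with hsdef
    have h1 := exp_neg_third_le
    have hE : 1 + s + s ^ 2 / 2 + s ^ 3 / 6 ≤ exp s := by
      have := sum_le_exp_of_nonneg hs 4
      simp only [Finset.sum_range_succ, Finset.sum_range_zero, Nat.factorial] at this
      norm_num at this
      linarith
    have hQ : 1 + s - s * (b / (1 + b)) - (b / (1 + b)) ^ 2 = (11 / 3 + s / 3 - s ^ 2) / (1 + b) ^ 2 := by
      have hne : (1 + b) ≠ 0 := by positivity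
      rw [eq_div_iff (by positivity)]
      have h5 : (1 + s - s * (b / (1 + b)) - (b / (1 + b)) ^ 2) * (1 + b) ^ 2
          = (1 + s) * (1 + b) ^ 2 - s * b * (1 + b) - b ^ 2 := by
        field_simp
      rw [h5, hsdef]
      ring
    have hP := poly_bound hb hs rfl
    have h2 : exp (-s) * (1 + s - s * (b / (1 + b)) - (b / (1 + b)) ^ 2) ≤ 17 / 25 := by
      rw [hQ, exp_neg, inv_mul_eq_div, div_le_iff₀ (exp_pos _), div_le_iff₀ (by positivity)]
      have h3 : 17 / 25 * (1 + s + s ^ 2 / 2 + s ^ 3 / 6) * (1 + b) ^ 2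
          ≤ 17 / 25 * exp s * (1 + b) ^ 2 := by
        apply mul_le_mul_of_nonneg_right _ (by positivity)
        apply mul_le_mul_of_nonneg_left hE (by norm_num)
      linarith
    nlinarith

/-- the explicit curve of level pairs for the weight `w`. -/
def τ1 (r : ℝ) : ℝ := log r / (r - 1)

def τ2 (r : ℝ) : ℝ := r * τ1 r

lemma log_pos_of_gt {r : ℝ} (hr : 1 < r) : 0 < log r := log_pos hr

lemma τ1_pos {r : ℝ} (hr : 1 < r) : 0 < τ1 r :=
  div_pos (log_pos hr) (by linarith)

lemma τ1_lt_one {r : ℝ} (hr : 1 < r) : τ1 r < 1 := by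
  unfold τ1
  rw [div_lt_one (by linarith)]
  exact log_lt_sub_one_of_pos (by linarith) (by linarith)

lemma τ2_gt_one {r : ℝ} (hr : 1 < r) : 1 < τ2 r := by
  unfold τ2 τ1
  have hr0 : 0 < r := by linarith
  have h1 : log r⁻¹ < r⁻¹ - 1 := log_lt_sub_one_of_pos (inv_pos.2 hr0)
    (by
      intro h
      have : r = 1 := by rwa [inv_eq_one] at h
      linarith)
  rw [log_inv] at h1
  rw [← mul_div_assoc, lt_div_iff₀ (by linarith)]
  have h2 : r * (1 - r⁻¹) < r * log r := by
    apply mul_lt_mul_of_pos_left _ hr0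
    linarith
  have h3 : r * (1 - r⁻¹) = r - 1 := by field_simp
  linarith

lemma τ2_sub {r : ℝ} (hr : 1 < r) : τ2 r - τ1 r = log r := by
  unfold τ2 τ1
  have : r - 1 ≠ 0 := by linarith [sub_pos.2 hr]
  field_simp

lemma psi_concave : ConcaveOn ℝ (Ioi 0) (fun t => log t - t) :=
  strictConcaveOn_log_Ioi.concaveOn.sub (convexOn_id (convex_Ioi 0))

lemma w_eq_exp {t : ℝ} (ht : 0 < t) : w t = exp (log t - t) := by
  rw [w_of_nonneg ht.le, sub_eq_add_neg, exp_add, exp_log ht]

lemma psi_eq {r : ℝ} (hr : 1 < r) :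
    log (τ2 r) - τ2 r = log (τ1 r) - τ1 r := by
  have h0 : 0 < τ1 r := τ1_pos hr
  have h1 : log (τ2 r) = log r + log (τ1 r) := by
    unfold τ2
    rw [log_mul (by linarith) h0.ne']
  have h2 := τ2_sub hr
  linarith

lemma w_pattern1 {r : ℝ} (hr : 1 < r) {t : ℝ} (h1 : τ1 r ≤ t) (h2 : t ≤ τ2 r) :
    w (τ1 r) ≤ w t := by
  have h0 : 0 < τ1 r := τ1_pos hr
  have h3 : 0 < τ2 r := by linarith [τ2_gt_one hr]
  have ht : 0 < t := by linarith
  have hlt : τ1 r < τ2 r := by linarith [τ1_lt_one hr, τ2_gt_one hr]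
  have := chord_in psi_concave (x := τ1 r) (y := τ2 r) (t := t) h0 h3 hlt h1 h2
  rw [psi_eq hr] at this
  simp only [sub_self, zero_div, zero_mul, add_zero] at this
  rw [w_eq_exp h0, w_eq_exp ht]
  exact exp_le_exp.2 this

lemma w_pattern2 {r : ℝ} (hr : 1 < r) {t : ℝ} (h : t ≤ τ1 r ∨ τ2 r ≤ t) :
    w t ≤ w (τ1 r) := by
  have h0 : 0 < τ1 r := τ1_pos hr
  have h3 : 0 < τ2 r := by linarith [τ2_gt_one hr]
  have hlt : τ1 r < τ2 r := by linarith [τ1_lt_one hr, τ2_gt_one hr]
  rcases le_or_gt t 0 with ht | ht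
  · rw [w_of_nonpos ht]; exact w_nonneg _
  rcases h with h | h
  · have := chord_left psi_concave (x := τ1 r) (y := τ2 r) (t := t) h0 h3 ht hlt h
    rw [psi_eq hr] at this
    simp only [sub_self, zero_div, zero_mul, add_zero] at this
    rw [w_eq_exp h0, w_eq_exp ht]
    exact exp_le_exp.2 this
  · have := chord_right psi_concave (x := τ1 r) (y := τ2 r) (t := t) h0 h3 ht hlt h
    rw [psi_eq hr] at this
    simp only [sub_self, zero_div, zero_mul, add_zero] at this
    rw [w_eq_exp h0, w_eq_exp ht]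
    exact exp_le_exp.2 this

section compare

variable {R : ℝ → ℝ}

lemma diff_integral (hA : Integrable (fun t => R t - ind0 t)) (hmean : ∫ t, (R t - ind0 t) = 4 / 3)
    {b : ℝ} (hb : 0 < b) :
    Integrable (fun t => R t - C b t) ∧ ∫ t, (R t - C b t) = 0 := by
  have hc := comp_layer_one (4 / 3 - b) hb
  have e : (fun t => R t - C b t) = fun t => (R t - ind0 t) - (comp (4 / 3 - b) b t - ind0 t) := by
    funext t
    simp only [C]
    ring
  constructor
  · rw [e]; exact hA.sub hc.1
  · rw [e, integral_sub hA hc.1, hmean, hc.2]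
    ring

lemma compare_of_crossing (hRm : Measurable R) (hR0 : ∀ t, 0 < R t) (hR1 : ∀ t, R t < 1)
    (hA : Integrable (fun t => R t - ind0 t)) (hmean : ∫ t, (R t - ind0 t) = 4 / 3)
    {b lam τ₁ τ₂ : ℝ} (hb : 0 < b)
    (hw1 : ∀ t, τ₁ ≤ t → t ≤ τ₂ → lam ≤ w t) (hw2 : ∀ t, (t ≤ τ₁ ∨ τ₂ ≤ t) → w t ≤ lam)
    (h1 : ∀ t, τ₁ ≤ t → t ≤ τ₂ → exp (-1 - (t - 4 / 3) / b) ≤ R t)
    (h2 : ∀ t, (t ≤ τ₁ ∨ τ₂ ≤ t) → R t ≤ exp (-1 - (t - 4 / 3) / b)) :
    ∫ t, w t * C b t ≤ ∫ t, w t * R t := by
  have hP : ∀ t, 0 ≤ (w t - lam) * (R t - C b t) := by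
    intro t
    by_cases ht : τ₁ ≤ t ∧ t ≤ τ₂
    · apply mul_nonneg
      · linarith [hw1 t ht.1 ht.2]
      · linarith [h1 t ht.1 ht.2, C_le_exp hb t]
    · have ht' : t ≤ τ₁ ∨ τ₂ ≤ t := by
        by_contra hc
        push Not at hc
        exact ht ⟨hc.1.le, hc.2.le⟩
      apply mul_nonneg_of_nonpos_of_nonpos
      · linarith [hw2 t ht']
      · have := le_C hb (hR1 t).le (h2 t ht')
        linarith
  have hI1 := w_mul_bdd_integrable hRm (fun t => (hR0 t).le) (fun t => (hR1 t).le)
  have hI2 := w_mul_bdd_integrable (C_meas b) (C_nonneg b) (C_le_one hb)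
  obtain ⟨hD, hD0⟩ := diff_integral hA hmean hb
  have e : ∀ t, (w t - lam) * (R t - C b t) = w t * R t - w t * C b t - lam * (R t - C b t) := by
    intro t; ring
  have h3 : 0 ≤ ∫ t, (w t - lam) * (R t - C b t) := integral_nonneg hP
  simp_rw [e] at h3
  have hI12 : Integrable (fun t => w t * R t - w t * C b t) := hI1.sub hI2
  rw [integral_sub hI12 (hD.const_mul lam), integral_sub hI1 hI2, integral_const_mul, hD0]
    at h3
  linarith

lemma compare_partial (hRm : Measurable R) (hR0 : ∀ t, 0 < R t) (hR1 : ∀ t, R t < 1)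
    {b τ₁ τ₂ : ℝ} (hb : 0 < b) (hτ : τ₁ ≤ τ₂)
    (h1 : ∀ t, τ₁ ≤ t → t ≤ τ₂ → exp (-1 - (t - 4 / 3) / b) ≤ R t) :
    ∫ t, w t * C b t ≤ (∫ t, w t * R t) + (1 - ∫ t in τ₁..τ₂, w t) := by
  have hI1 := w_mul_bdd_integrable hRm (fun t => (hR0 t).le) (fun t => (hR1 t).le)
  have hI2 := w_mul_bdd_integrable (C_meas b) (C_nonneg b) (C_le_one hb)
  have hI3 : Integrable ((Ioc τ₁ τ₂).indicator w) := w_integrable.indicator measurableSet_Ioc
  have hpt : ∀ t, w t * C b t ≤ w t * R t + (w t - (Ioc τ₁ τ₂).indicator w t) := by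
    intro t
    by_cases ht : t ∈ Ioc τ₁ τ₂
    · rw [indicator_of_mem ht, sub_self, add_zero]
      apply mul_le_mul_of_nonneg_left _ (w_nonneg t)
      linarith [h1 t ht.1.le ht.2, C_le_exp hb t]
    · rw [indicator_of_notMem ht, sub_zero]
      have h2 : w t * C b t ≤ w t := mul_le_of_le_one_right (w_nonneg t) (C_le_one hb t)
      have h3 : 0 ≤ w t * R t := mul_nonneg (w_nonneg t) (hR0 t).le
      linarith
  have hI4 : Integrable (fun t => w t - (Ioc τ₁ τ₂).indicator w t) := w_integrable.sub hI3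
  have hI5 : Integrable (fun t => w t * R t + (w t - (Ioc τ₁ τ₂).indicator w t)) := hI1.add hI4
  have := integral_mono hI2 hI5 hpt
  rw [integral_add hI1 hI4, integral_sub w_integrable hI3, w_integral,
    integral_indicator measurableSet_Ioc, ← intervalIntegral.integral_of_le hτ] at this
  exact this

lemma interval_w {x y : ℝ} :
    ∫ t in x..y, w t = Crest.AlgGeometry.truncExpWeight x - Crest.AlgGeometry.truncExpWeight y := by
  rw [g_eq x, g_eq y]
  have := intervalIntegral.integral_interval_sub_left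
    (a := 0) (b := y) (c := x) (f := w) (μ := volume)
    (w_cont.intervalIntegrable _ _) (w_cont.intervalIntegrable _ _)
  linarith

lemma g_pos_formula {y : ℝ} (hy : 0 < y) :
    Crest.AlgGeometry.truncExpWeight y = (1 + y) * exp (-y) := by
  unfold Crest.AlgGeometry.truncExpWeight
  rw [if_neg (by linarith)]

lemma eps_bound {n : ℕ} (hn : 1 ≤ n) :
    1 - ∫ t in τ1 (exp n)..τ2 (exp n), w t ≤ 4 / n := by
  have hn0 : (0 : ℝ) < n := by exact_mod_cast hn
  have hn1 : (1 : ℝ) ≤ n := by exact_mod_cast hn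
  have hr : 1 < exp (n : ℝ) := by rw [one_lt_exp_iff]; exact hn0
  have h0 := τ1_pos hr
  have h1 : τ1 (exp n) ≤ 2 / n := by
    unfold τ1
    rw [log_exp, div_le_div_iff₀ (by linarith) hn0]
    have := quadratic_le_exp_of_nonneg hn0.le
    nlinarith
  have h2 : (n : ℝ) ≤ τ2 (exp n) := by
    have := τ2_sub hr
    rw [log_exp] at this
    linarith
  have h3 : 0 < τ2 (exp n) := by linarith
  rw [interval_w, g_pos_formula h0, g_pos_formula h3]
  -- first term
  have h4 : 1 - τ1 (exp n) ≤ (1 + τ1 (exp n)) * exp (-τ1 (exp n)) := by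
    have h5 : 1 - τ1 (exp n) ≤ exp (-τ1 (exp n)) := by
      linarith [add_one_le_exp (-τ1 (exp n))]
    have h6 : 0 < exp (-τ1 (exp n)) := exp_pos _
    nlinarith
  -- second term
  have h7 : (1 + τ2 (exp n)) * exp (-τ2 (exp n)) ≤ 2 / n := by
    set y := τ2 (exp n) with hy
    have h8 := quadratic_le_exp_of_nonneg h3.le
    rw [exp_neg, ← div_eq_mul_inv, div_le_div_iff₀ (exp_pos _) hn0]
    have h9 : (1 + y) * y ≤ 2 * exp y := by nlinarith
    have h10 : (1 + y) * n ≤ (1 + y) * y := mul_le_mul_of_nonneg_left h2 (by linarith)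
    linarith
  have h11 : (4 : ℝ) / n = 2 / n + 2 / n := by ring
  rw [h11]
  linarith

end compare

/-- The master inequality for log-concave survival functions with mean `4/3`. -/
theorem master {R : ℝ → ℝ} (hRc : Continuous R) (hR0 : ∀ t, 0 < R t) (hR1 : ∀ t, R t < 1)
    (hconc : ConcaveOn ℝ univ (fun t => log (R t)))
    (hA : Integrable (fun t => R t - ind0 t)) (hmean : ∫ t, (R t - ind0 t) = 4 / 3) :
    4 / 9 * exp (-(1 / 3)) ≤ ∫ t, w t * R t := by
  have hRm : Measurable R := hRc.measurable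
  set ℓ : ℝ → ℝ := fun t => log (R t) with hℓ
  have hexp : ∀ t, exp (ℓ t) = R t := fun t => exp_log (hR0 t)
  have hℓc : Continuous ℓ := hRc.log (fun t => (hR0 t).ne')
  have huniv : ∀ x : ℝ, x ∈ (univ : Set ℝ) := mem_univ
  -- strict decrease
  have hdec : ∀ x y, x < y → ℓ y < ℓ x := by
    intro x y hxy
    by_contra hcon
    push Not at hcon
    have hbound : ∀ t, t < x → R t ≤ R x := by
      intro t ht
      have := chord_left hconc (huniv x) (huniv y) (huniv t) hxy ht.le
      have h1 : (ℓ y - ℓ x) / (y - x) * (t - x) ≤ 0 :=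
        mul_nonpos_of_nonneg_of_nonpos (div_nonneg (by linarith) (by linarith)) (by linarith)
      have h2 : ℓ t ≤ ℓ x := by
        simp only [hℓ] at this h1 ⊢
        linarith
      rw [← hexp t, ← hexp x]
      exact exp_le_exp.2 h2
    have hδ : 0 < 1 - R x := by linarith [hR1 x]
    have hfin := hA.measure_norm_ge_lt_top hδ
    have hsub : Iio (min x 0) ⊆ {t | 1 - R x ≤ ‖R t - ind0 t‖} := by
      intro t ht
      have ht' : t < min x 0 := ht
      have h1 : t < x := lt_of_lt_of_le ht' (min_le_left _ _)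
      have h2 : t < 0 := lt_of_lt_of_le ht' (min_le_right _ _)
      have h3 : ind0 t = 1 := by simp [ind0, h2]
      simp only [mem_setOf_eq, h3, Real.norm_eq_abs]
      rw [abs_sub_comm]
      have := hbound t h1
      exact le_trans (by linarith) (le_abs_self _)
    have hinf : volume (Iio (min x 0)) = ⊤ := Real.volume_Iio
    have := measure_mono (μ := volume) hsub
    rw [hinf] at this
    exact absurd (lt_of_le_of_lt this hfin) (lt_irrefl _)
  -- Grünbaum-type bound
  have hgr : -1 ≤ ℓ (4 / 3) := by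
    obtain ⟨m, hm⟩ := exists_support_line hconc (4 / 3)
    have hmneg : m < 0 := by
      have h1 := hm (4 / 3 - 1)
      have h2 := hdec (4 / 3 - 1) (4 / 3) (by norm_num)
      have h3 : (4 / 3 - 1 - 4 / 3 : ℝ) = -1 := by norm_num
      rw [h3] at h1
      linarith
    set b := -1 / m with hbdef
    have hb : 0 < b := div_pos_of_neg_of_neg (by norm_num) hmneg
    have hinvb : -(1 / b) = m := by
      simp only [hbdef]
      field_simp
    set ts := 4 / 3 + b * ℓ (4 / 3) with hts
    have hle : ∀ t, R t ≤ comp ts b t := by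
      intro t
      unfold comp
      split_ifs with h
      · exact (hR1 t).le
      · rw [← hexp t]
        apply exp_le_exp.2
        have h1 := hm t
        have h2 : -(t - ts) / b = ℓ (4 / 3) + m * (t - 4 / 3) := by
          rw [← hinvb, hts]
          field_simp
          ring
        rw [h2]
        exact h1
    obtain ⟨hc1, hc2⟩ := comp_layer_one ts hb
    have h3 := integral_mono hA hc1 (fun t => by
      have := hle t
      simp only
      linarith)
    rw [hmean, hc2, hts] at h3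
    have h4 : 0 ≤ b * (ℓ (4 / 3) + 1) := by linarith
    have := nonneg_of_mul_nonneg_right h4 hb
    linarith
  -- curves
  set m : ℝ → ℝ := fun r => (ℓ (τ2 r) - ℓ (τ1 r)) / (τ2 r - τ1 r) with hmdef
  set L : ℝ → ℝ → ℝ := fun r t => ℓ (τ1 r) + m r * (t - τ1 r) with hLdef
  have hlt : ∀ r, 1 < r → τ1 r < τ2 r := fun r hr => by
    linarith [τ1_lt_one hr, τ2_gt_one hr]
  have hmneg : ∀ r, 1 < r → m r < 0 := by
    intro r hr
    have h1 := hlt r hr
    exact div_neg_of_neg_of_pos (by linarith [hdec _ _ h1]) (by linarith)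
  have hin : ∀ r, 1 < r → ∀ t, τ1 r ≤ t → t ≤ τ2 r → L r t ≤ ℓ t := by
    intro r hr t h1 h2
    exact chord_in hconc (huniv _) (huniv _) (hlt r hr) h1 h2
  have hout : ∀ r, 1 < r → ∀ t, (t ≤ τ1 r ∨ τ2 r ≤ t) → ℓ t ≤ L r t := by
    intro r hr t h
    rcases h with h | h
    · exact chord_left hconc (huniv _) (huniv _) (huniv _) (hlt r hr) h
    · exact chord_right hconc (huniv _) (huniv _) (huniv _) (hlt r hr) h
  -- the comparison family
  have hb_of : ∀ r, 1 < r → 0 < -1 / m r := fun r hr =>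
    div_pos_of_neg_of_neg (by norm_num) (hmneg r hr)
  have hline : ∀ r, 1 < r → ∀ t, L r t = L r (4 / 3) + (-1 - (t - 4 / 3) / (-1 / m r)) + 1 := by
    intro r hr t
    have hne := (hmneg r hr).ne
    simp only [hLdef]
    field_simp
    ring
  -- upper endpoint
  have h32 : (1 : ℝ) < 3 / 2 := by norm_num
  have hstart : -1 ≤ L (3 / 2) (4 / 3) := by
    have hτ : τ2 (3 / 2) ≤ 4 / 3 := by
      unfold τ2 τ1
      have h1 : log (3 / 2) ≤ 4 / 9 := by
        rw [log_le_iff_le_exp (by norm_num)]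
        have := quadratic_le_exp_of_nonneg (x := 4 / 9) (by norm_num)
        norm_num at this ⊢
        linarith
      norm_num
      linarith
    have := hout (3 / 2) h32 (4 / 3) (Or.inr hτ)
    linarith
  -- case split
  by_cases hcase : ∃ r, 1 < r ∧ L r (4 / 3) ≤ -1
  · -- IVT gives a root
    obtain ⟨r1, hr1, hr1L⟩ := hcase
    have hcont : ContinuousOn (fun r => L r (4 / 3)) (Ioi 1) := by
      have hτ1 : ContinuousOn τ1 (Ioi 1) := by
        unfold τ1
        refine ContinuousOn.div ?_ (by fun_prop) ?_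
        · refine continuousOn_log.mono ?_
          intro x hx
          have : (1 : ℝ) < x := hx
          simp only [mem_compl_iff, mem_singleton_iff]
          linarith
        · intro x hx
          have : (1 : ℝ) < x := hx
          linarith
      have hτ2 : ContinuousOn τ2 (Ioi 1) := by
        unfold τ2
        exact continuousOn_id.mul hτ1
      have hm' : ContinuousOn m (Ioi 1) := by
        simp only [hmdef]
        refine ContinuousOn.div ?_ (hτ2.sub hτ1) ?_
        · exact (hℓc.comp_continuousOn hτ2).sub (hℓc.comp_continuousOn hτ1)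
        · intro r hr
          have := hlt r hr
          linarith
      simp only [hLdef]
      exact (hℓc.comp_continuousOn hτ1).add (hm'.mul (continuousOn_const.sub hτ1))
    have hsub : uIcc (3 / 2) r1 ⊆ Ioi (1 : ℝ) := by
      intro x hx
      rcases le_total (3 / 2) r1 with h | h
      · rw [uIcc_of_le h] at hx
        exact lt_of_lt_of_le h32 hx.1
      · rw [uIcc_of_ge h] at hx
        exact lt_of_lt_of_le hr1 hx.1
    have hivt := intermediate_value_uIcc (hcont.mono hsub)
    have hmem : (-1 : ℝ) ∈ uIcc (L (3 / 2) (4 / 3)) (L r1 (4 / 3)) := by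
      rw [uIcc_of_ge (hr1L.trans hstart)]
      exact ⟨hr1L, hstart⟩
    obtain ⟨r0, hr0mem, hr0⟩ := hivt hmem
    have hr0' : 1 < r0 := hsub hr0mem
    simp only at hr0
    have hb : 0 < -1 / m r0 := hb_of r0 hr0'
    have hcomp := compare_of_crossing hRm hR0 hR1 hA hmean (b := -1 / m r0) (lam := w (τ1 r0))
      (τ₁ := τ1 r0) (τ₂ := τ2 r0) hb
      (fun t h1 h2 => w_pattern1 hr0' h1 h2) (fun t h => w_pattern2 hr0' h)
      (fun t h1 h2 => by
        rw [← hexp t]
        apply exp_le_exp.2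
        have h3 := hin r0 hr0' t h1 h2
        have h4 := hline r0 hr0' t
        rw [hr0] at h4
        linarith)
      (fun t h => by
        rw [← hexp t]
        apply exp_le_exp.2
        have h3 := hout r0 hr0' t h
        have h4 := hline r0 hr0' t
        rw [hr0] at h4
        linarith)
    exact (J_ge hb).trans hcomp
  · push Not at hcase
    have hall : ∀ n : ℕ, 1 ≤ n → 4 / 9 * exp (-(1 / 3)) - 4 / n ≤ ∫ t, w t * R t := by
      intro n hn
      have hn0 : (0 : ℝ) < n := by exact_mod_cast hn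
      have hr : 1 < exp (n : ℝ) := by rw [one_lt_exp_iff]; exact hn0
      set r := exp (n : ℝ) with hrdef
      have hb : 0 < -1 / m r := hb_of r hr
      have hpart := compare_partial hRm hR0 hR1 (b := -1 / m r) (τ₁ := τ1 r) (τ₂ := τ2 r) hb
        (hlt r hr).le (fun t h1 h2 => by
          rw [← hexp t]
          apply exp_le_exp.2
          have h3 := hin r hr t h1 h2
          have h4 := hline r hr t
          have h5 := hcase r hr
          linarith)
      have h6 := eps_bound hn
      rw [← hrdef] at h6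
      have h7 := J_ge hb
      linarith
    by_contra hcon
    push Not at hcon
    set δ := 4 / 9 * exp (-(1 / 3)) - ∫ t, w t * R t with hδ
    have hδpos : 0 < δ := by linarith
    obtain ⟨n, hn⟩ := exists_nat_gt (4 / δ)
    have hn1 : 1 ≤ n := by
      have h1 : (0 : ℝ) < n := lt_trans (by positivity) hn
      exact_mod_cast h1
    have hn0 : (0 : ℝ) < n := by exact_mod_cast hn1
    have h2 := hall n hn1
    have h3 : 4 / (n : ℝ) < δ := by
      rw [div_lt_iff₀ hn0]
      rw [div_lt_iff₀ hδpos] at hn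
      linarith
    linarith

end

end Crest.Agent.S0423Lib
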