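import Mathlib
import Crest.Prelude.Def_TruncExpWeight
import Crest.Agent.S0423Lib.Master

set_option autoImplicit false

namespace Crest.Agent.S0423Lib

open MeasureTheory Set Real Filter Topology ProbabilityTheory

noncomputable section

/-- product of exponential laws -/
def μN (N : ℕ) : Measure (Fin N → ℝ) := Measure.pi (fun _ => ρ)

instance μN_prob (N : ℕ) : IsProbabilityMeasure (μN N) := by
  unfold μN; infer_instance

/-- expectation of `f (s + ∑ a_i X_i)` -/
def It (f : ℝ → ℝ) {N : ℕ} (a : Fin N → ℝ) (s : ℝ) : ℝ :=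
  ∫ x, f (s + ∑ i, a i * x i) ∂(μN N)

/-- good weights -/
structure Good (f : ℝ → ℝ) : Prop where
  mono : Monotone f
  nonneg : ∀ s, 0 ≤ f s
  le_one : ∀ s, f s ≤ 1

lemma Good.meas {f : ℝ → ℝ} (hf : Good f) : Measurable f := hf.mono.measurable

lemma Good.abs_le {f : ℝ → ℝ} (hf : Good f) (s : ℝ) : |f s| ≤ 1 := by
  rw [abs_of_nonneg (hf.nonneg s)]; exact hf.le_one s

lemma comp_linear_meas {f : ℝ → ℝ} (hf : Measurable f) {N : ℕ} (a : Fin N → ℝ) (s : ℝ) :
    Measurable (fun x : Fin N → ℝ => f (s + ∑ i, a i * x i)) :=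
  hf.comp (by fun_prop)

lemma It_integrable {f : ℝ → ℝ} (hf : Good f) {N : ℕ} (a : Fin N → ℝ) (s : ℝ) :
    Integrable (fun x : Fin N → ℝ => f (s + ∑ i, a i * x i)) (μN N) := by
  refine Integrable.mono' (integrable_const (1 : ℝ))
    (comp_linear_meas hf.meas a s).aestronglyMeasurable (Eventually.of_forall fun x => ?_)
  rw [Real.norm_eq_abs]
  exact hf.abs_le _

lemma It_good {f : ℝ → ℝ} (hf : Good f) {N : ℕ} (a : Fin N → ℝ) : Good (It f a) := by
  refine ⟨?_, ?_, ?_⟩
  · intro s t hst
    refine integral_mono (It_integrable hf a s) (It_integrable hf a t) fun x => ?_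
    exact hf.mono (by linarith)
  · intro s
    exact integral_nonneg fun x => hf.nonneg _
  · intro s
    have : It f a s ≤ ∫ _x : Fin N → ℝ, (1 : ℝ) ∂(μN N) :=
      integral_mono (It_integrable hf a s) (integrable_const _) fun x => hf.le_one _
    simpa using this

lemma It_zero (f : ℝ → ℝ) (a : Fin 0 → ℝ) (s : ℝ) : It f a s = f s := by
  unfold It
  simp

lemma It_succ {f : ℝ → ℝ} (hf : Good f) {N : ℕ} (a : Fin (N + 1) → ℝ) (s : ℝ) :
    It f a s = Op (a 0) (It f (Fin.tail a)) s := by
  unfold It Op μN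
  have h1 := (measurePreserving_piFinSuccAbove (fun _ : Fin (N + 1) => ρ) 0).symm.integral_comp'
    (fun x : Fin (N + 1) → ℝ => f (s + ∑ i, a i * x i))
  rw [← h1]
  have h2 : ∀ p : ℝ × (Fin N → ℝ),
      f (s + ∑ i, a i * (MeasurableEquiv.piFinSuccAbove (fun _ => ℝ) 0).symm p i)
        = f ((s + a 0 * p.1) + ∑ j, Fin.tail a j * p.2 j) := by
    intro p
    congr 1
    simp only [MeasurableEquiv.piFinSuccAbove_symm_apply, Fin.insertNthEquiv, Equiv.coe_fn_mk,
      Fin.sum_univ_succ, Fin.insertNth_zero, Fin.cons_zero, Fin.cons_succ, Fin.tail, add_assoc]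
    simp
  simp_rw [h2]
  have hint : Integrable (fun p : ℝ × (Fin N → ℝ) => f ((s + a 0 * p.1) + ∑ j, Fin.tail a j * p.2 j))
      (ρ.prod (Measure.pi fun _ => ρ)) := by
    refine Integrable.mono' (integrable_const (1 : ℝ)) ?_ (Eventually.of_forall fun x => ?_)
    · exact (hf.meas.comp (by fun_prop)).aestronglyMeasurable
    · rw [Real.norm_eq_abs]
      exact hf.abs_le _
  rw [integral_prod _ hint, ρ_integral]

lemma It_LC {f : ℝ → ℝ} (hf : Good f) (hLC : LC f) : ∀ {N : ℕ} (a : Fin N → ℝ), LC (It f a) := by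
  intro N
  induction N with
  | zero =>
    intro a
    have : It f a = f := by funext s; exact It_zero f a s
    rw [this]; exact hLC
  | succ N ih =>
    intro a
    have : It f a = Op (a 0) (It f (Fin.tail a)) := by funext s; exact It_succ hf a s
    rw [this]
    exact LC_Op (It_good hf _).meas (It_good hf _).abs_le (ih _)

lemma It_continuous {f : ℝ → ℝ} (hf : Good f) :
    ∀ {N : ℕ} (a : Fin N → ℝ), (∃ i, a i ≠ 0) → Continuous (It f a) := by
  intro N
  induction N with
  | zero =>
    intro a h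
    obtain ⟨i, _⟩ := h
    exact i.elim0
  | succ N ih =>
    intro a h
    have e : It f a = Op (a 0) (It f (Fin.tail a)) := by funext s; exact It_succ hf a s
    rw [e]
    by_cases h0 : a 0 = 0
    · rw [h0]
      have e2 : Op 0 (It f (Fin.tail a)) = It f (Fin.tail a) := by
        funext s; exact Op_zero _ s
      rw [e2]
      obtain ⟨i, hi⟩ := h
      refine ih _ ?_
      induction i using Fin.cases with
      | zero => exact absurd h0 hi
      | succ j => exact ⟨j, hi⟩
    · exact continuous_Op h0 (It_good hf _).meas (It_good hf _).abs_le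

lemma It_pos_large {f : ℝ → ℝ} (hf : Good f) (hpos : ∀ s, 0 < s → 0 < f s) :
    ∀ {N : ℕ} (a : Fin N → ℝ), ∃ s0, ∀ s, s0 ≤ s → 0 < It f a s := by
  intro N
  induction N with
  | zero =>
    intro a
    refine ⟨1, fun s hs => ?_⟩
    rw [It_zero]
    exact hpos s (by linarith)
  | succ N ih =>
    intro a
    obtain ⟨s0, hs0⟩ := ih (Fin.tail a)
    refine ⟨s0 + 1, fun s hs => ?_⟩
    rw [It_succ hf]
    exact Op_pos_large (It_good hf _).meas (It_good hf _).abs_le (It_good hf _).nonneg hs0 s hs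

lemma It_pos {f : ℝ → ℝ} (hf : Good f) (hpos : ∀ s, 0 < s → 0 < f s) :
    ∀ {N : ℕ} (a : Fin N → ℝ), (∃ i, 0 < a i) → ∀ s, 0 < It f a s := by
  intro N
  induction N with
  | zero =>
    intro a h
    obtain ⟨i, _⟩ := h
    exact i.elim0
  | succ N ih =>
    intro a h s
    rw [It_succ hf]
    by_cases h0 : 0 < a 0
    · obtain ⟨s0, hs0⟩ := It_pos_large hf hpos (Fin.tail a)
      exact Op_pos_of_coeff_pos h0 (It_good hf _).meas (It_good hf _).abs_le (It_good hf _).nonneg
        hs0 s
    · obtain ⟨i, hi⟩ := h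
      have h1 : ∃ j, 0 < Fin.tail a j := by
        induction i using Fin.cases with
        | zero => exact absurd hi h0
        | succ j => exact ⟨j, hi⟩
      exact Op_pos_of_pos (It_good hf _).meas (It_good hf _).abs_le (ih _ h1) s

/-- the two indicator weights -/
def f0 (s : ℝ) : ℝ := if 0 < s then 1 else 0

def f1 (s : ℝ) : ℝ := if 0 ≤ s then 1 else 0

lemma f0_good : Good f0 := by
  refine ⟨?_, ?_, ?_⟩
  · intro s t hst
    unfold f0
    split_ifs with h1 h2 h2
    · exact le_rfl
    · linarith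
    · exact zero_le_one
    · exact le_rfl
  · intro s; unfold f0; split_ifs <;> norm_num
  · intro s; unfold f0; split_ifs <;> norm_num

lemma f1_good : Good f1 := by
  refine ⟨?_, ?_, ?_⟩
  · intro s t hst
    unfold f1
    split_ifs with h1 h2 h2
    · exact le_rfl
    · linarith
    · exact zero_le_one
    · exact le_rfl
  · intro s; unfold f1; split_ifs <;> norm_num
  · intro s; unfold f1; split_ifs <;> norm_num

lemma f0_LC : LC f0 := by
  intro x y h hxy hh
  unfold f0
  by_cases h1 : 0 < x - h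
  · have h2 : 0 < y + h := by linarith
    have h3 : 0 < x := by linarith
    have h4 : 0 < y := by linarith
    simp [h1, h2, h3, h4]
  · have h0 : 0 ≤ (if 0 < x then (1 : ℝ) else 0) * (if 0 < y then (1 : ℝ) else 0) := by
      split_ifs <;> norm_num
    simpa [h1] using h0

/-- survival function -/
def Rsurv {N : ℕ} (a : Fin N → ℝ) (t : ℝ) : ℝ :=
  (μN N).real {x | t < 4 / 3 + ∑ i, a i * x i}

lemma meas_Y {N : ℕ} (a : Fin N → ℝ) : Measurable (fun x : Fin N → ℝ => 4 / 3 + ∑ i, a i * x i) := by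
  fun_prop

lemma Rsurv_eq {N : ℕ} (a : Fin N → ℝ) (t : ℝ) : Rsurv a t = It f0 a (4 / 3 - t) := by
  unfold Rsurv It
  have hset : MeasurableSet {x : Fin N → ℝ | t < 4 / 3 + ∑ i, a i * x i} :=
    measurableSet_lt measurable_const (meas_Y a)
  rw [← integral_indicator_one hset]
  refine integral_congr_ae (Eventually.of_forall fun x => ?_)
  unfold f0
  by_cases h : t < 4 / 3 + ∑ i, a i * x i
  · have h2 : 0 < 4 / 3 - t + ∑ i, a i * x i := by linarith
    simp [h, h2]
  · have h2 : ¬ 0 < 4 / 3 - t + ∑ i, a i * x i := by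
      intro h3; apply h; linarith
    simp [h, h2]

lemma one_sub_Rsurv_eq {N : ℕ} (a : Fin N → ℝ) (t : ℝ) :
    1 - Rsurv a t = It f1 (fun i => -a i) (t - 4 / 3) := by
  rw [Rsurv_eq]
  have h1 : (1 : ℝ) = ∫ _x : Fin N → ℝ, (1 : ℝ) ∂(μN N) := by simp
  unfold It
  rw [h1, ← integral_sub (integrable_const _) (It_integrable f0_good a _)]
  refine integral_congr_ae (Eventually.of_forall fun x => ?_)
  have e : t - 4 / 3 + ∑ i, -a i * x i = -(4 / 3 - t + ∑ i, a i * x i) := by
    simp only [neg_mul, Finset.sum_neg_distrib]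
    ring
  simp only [e]
  unfold f0 f1
  by_cases h : 0 < 4 / 3 - t + ∑ i, a i * x i
  · have h2 : ¬ 0 ≤ -(4 / 3 - t + ∑ i, a i * x i) := by
      intro h3; linarith
    rw [if_pos h, if_neg h2]; ring
  · have h2 : 0 ≤ -(4 / 3 - t + ∑ i, a i * x i) := by linarith
    rw [if_neg h, if_pos h2]; ring

lemma Rsurv_LC {N : ℕ} (a : Fin N → ℝ) : LC (Rsurv a) := by
  intro x y h hxy hh
  simp only [Rsurv_eq]
  have h1 := It_LC f0_good f0_LC a (4 / 3 - y) (4 / 3 - x) h (by linarith) hh
  have e1 : 4 / 3 - (x - h) = 4 / 3 - x + h := by ring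
  have e2 : 4 / 3 - (y + h) = 4 / 3 - y - h := by ring
  rw [e1, e2]
  linarith [mul_comm (It f0 a (4 / 3 - x + h)) (It f0 a (4 / 3 - y - h)),
    mul_comm (It f0 a (4 / 3 - x)) (It f0 a (4 / 3 - y))]

lemma coord_integrable {N : ℕ} (i : Fin N) : Integrable (fun x : Fin N → ℝ => x i) (μN N) := by
  unfold μN
  exact integrable_comp_eval (μ := fun _ => ρ) (f := fun x : ℝ => x) ρ_id_integrable

lemma coord_integral {N : ℕ} (i : Fin N) : ∫ x, x i ∂(μN N) = 1 := by
  unfold μN
  rw [integral_comp_eval (μ := fun _ : Fin N => ρ) (f := fun x : ℝ => x) (by fun_prop)]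
  exact ρ_id_integral

lemma Y_integrable {N : ℕ} (a : Fin N → ℝ) :
    Integrable (fun x : Fin N → ℝ => 4 / 3 + ∑ i, a i * x i) (μN N) := by
  refine (integrable_const _).add ?_
  exact integrable_finset_sum _ fun i _ => (coord_integrable i).const_mul (a i)

lemma Y_integral {N : ℕ} (a : Fin N → ℝ) :
    ∫ x, (4 / 3 + ∑ i, a i * x i) ∂(μN N) = 4 / 3 + ∑ i, a i := by
  rw [integral_add (integrable_const _)
    (integrable_finset_sum _ fun i _ => (coord_integrable i).const_mul (a i)),
    integral_finset_sum _ fun i _ => (coord_integrable i).const_mul (a i)]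
  simp [integral_const_mul, coord_integral]

lemma g_meas : Measurable Crest.AlgGeometry.truncExpWeight := by
  unfold Crest.AlgGeometry.truncExpWeight
  exact Measurable.ite measurableSet_Iic measurable_const (by fun_prop)

lemma g_nonneg (y : ℝ) : 0 ≤ Crest.AlgGeometry.truncExpWeight y := by
  unfold Crest.AlgGeometry.truncExpWeight
  split_ifs with h
  · exact zero_le_one
  · push Not at h
    positivity

lemma g_le_one (y : ℝ) : Crest.AlgGeometry.truncExpWeight y ≤ 1 := by
  unfold Crest.AlgGeometry.truncExpWeight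
  split_ifs with h
  · exact le_rfl
  · rw [exp_neg, ← div_eq_mul_inv, div_le_one (exp_pos _)]
    linarith [add_one_le_exp y]

section gen
variable {Ω : Type*} [MeasurableSpace Ω] {μ : Measure Ω} [IsProbabilityMeasure μ]

lemma g_comp_integrable {Y : Ω → ℝ} (hYm : Measurable Y) :
    Integrable (fun ω => Crest.AlgGeometry.truncExpWeight (Y ω)) μ := by
  refine Integrable.mono' (integrable_const (1 : ℝ)) (g_meas.comp hYm).aestronglyMeasurable
    (Eventually.of_forall fun x => ?_)
  rw [Real.norm_eq_abs, abs_of_nonneg (g_nonneg _)]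
  exact g_le_one _

lemma g_layer {Y : Ω → ℝ} (hYm : Measurable Y) (hYi : Integrable Y μ) :
    ∫ ω, Crest.AlgGeometry.truncExpWeight (Y ω) ∂μ = 1 - ∫ t, w t * μ.real {ω | t < Y ω} := by
  have hw : ∀ t, |w t| ≤ 1 := fun t => by
    rw [abs_of_nonneg (w_nonneg t)]; exact w_le_one t
  have h := (layer (μ := μ) hYm hYi w_cont hw).2
  have e1 : ∀ ω, ∫ t in (0 : ℝ)..Y ω, w t = 1 - Crest.AlgGeometry.truncExpWeight (Y ω) := by
    intro ω
    rw [g_eq]; ring
  simp_rw [e1] at h
  rw [integral_sub (integrable_const _) (g_comp_integrable hYm)] at h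
  have e2 : ∀ t, w t * (μ.real {ω | t < Y ω} - ind0 t) = w t * μ.real {ω | t < Y ω} := by
    intro t
    rw [mul_sub, w_mul_ind0, sub_zero]
  simp_rw [e2] at h
  simp at h
  linarith

end gen

lemma F_comp (ts : ℝ) {b : ℝ} (hb : 0 < b) :
    ∫ x, Crest.AlgGeometry.truncExpWeight (ts + b * x) ∂ρ = 1 - ∫ t, w t * comp ts b t := by
  rw [g_layer (μ := ρ) (Y := fun x => ts + b * x) (by fun_prop) (affine_integrable ts b)]
  simp only [ρ_real_comp ts hb]

/-- Upper bound of part one in the nondegenerate case. -/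
lemma F_upper_of_ne {N : ℕ} (a : Fin N → ℝ) (hsum : ∑ i, a i = 0) (hne : ∃ i, a i ≠ 0) :
    ∫ x, Crest.AlgGeometry.truncExpWeight (4 / 3 + ∑ i, a i * x i) ∂(μN N)
      ≤ 1 - 4 / 9 * exp (-(1 / 3)) := by
  rw [g_layer (meas_Y a) (Y_integrable a)]
  have hpos : ∃ i, 0 < a i := by
    obtain ⟨i, hi⟩ := hne
    obtain ⟨j, _, hj⟩ := Finset.exists_pos_of_sum_zero_of_exists_nonzero a hsum
      ⟨i, Finset.mem_univ _, hi⟩
    exact ⟨j, hj⟩
  have hneg : ∃ i, 0 < -a i := by
    obtain ⟨i, hi⟩ := hne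
    obtain ⟨j, _, hj⟩ := Finset.exists_pos_of_sum_zero_of_exists_nonzero
      (fun i => -a i) (by simp [hsum]) ⟨i, Finset.mem_univ _, neg_ne_zero.2 hi⟩
    exact ⟨j, hj⟩
  have hR0 : ∀ t, 0 < Rsurv a t := by
    intro t
    rw [Rsurv_eq]
    exact It_pos f0_good (fun s hs => by simp [f0, hs]) a hpos _
  have hR1 : ∀ t, Rsurv a t < 1 := by
    intro t
    have h1 : 0 < 1 - Rsurv a t := by
      rw [one_sub_Rsurv_eq]
      exact It_pos f1_good (fun s hs => by simp [f1, hs.le]) _ hneg _
    linarith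
  have hRc : Continuous (Rsurv a) := by
    have e : Rsurv a = fun t => It f0 a (4 / 3 - t) := by funext t; exact Rsurv_eq a t
    rw [e]
    obtain ⟨i, hi⟩ := hne
    exact (It_continuous f0_good a ⟨i, hi⟩).comp (by fun_prop)
  have hconc := concave_log_of_LC hRc hR0 (Rsurv_LC a)
  have hl := layer (μ := μN N) (meas_Y a) (Y_integrable a) (G := fun _ => 1) continuous_const
    (M := 1) (fun _ => by simp)
  simp only [one_mul] at hl
  have hA : Integrable (fun t => Rsurv a t - ind0 t) := hl.1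
  have hmean : ∫ t, (Rsurv a t - ind0 t) = 4 / 3 := by
    have h2 := hl.2
    simp only [intervalIntegral.integral_const, sub_zero, smul_eq_mul, mul_one] at h2
    rw [Y_integral, hsum] at h2
    unfold Rsurv
    linarith
  have := master hRc hR0 hR1 hconc hA hmean
  unfold Rsurv at this
  linarith

end

end Crest.Agent.S0423Lib
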