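import Mathlib
import Crest.Prelude.Def_TruncExpWeight
import Crest.Agent.S0423Lib.Product

set_option autoImplicit false

namespace Crest.Agent.S0423Lib

open MeasureTheory Set Real Filter Topology ProbabilityTheory

noncomputable section

lemma lintegral_pi_prod {n : ℕ} (ν : Fin n → Measure ℝ) [∀ i, SigmaFinite (ν i)]
    (F : Fin n → ℝ → ENNReal) (hF : ∀ i, Measurable (F i)) :
    ∫⁻ x, ∏ i, F i (x i) ∂(Measure.pi ν) = ∏ i, ∫⁻ y, F i y ∂(ν i) := by
  induction n with
  | zero => simp
  | succ n ih =>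
    have h1 := (measurePreserving_piFinSuccAbove ν 0).symm.lintegral_comp
      (f := fun x : Fin (n + 1) → ℝ => ∏ i, F i (x i))
      (Finset.measurable_prod _ fun i _ => (hF i).comp (measurable_pi_apply i))
    rw [← h1]
    have h2 : ∀ p : ℝ × (Fin n → ℝ),
        ∏ i, F i ((MeasurableEquiv.piFinSuccAbove (fun _ => ℝ) 0).symm p i)
          = F 0 p.1 * ∏ j : Fin n, F j.succ (p.2 j) := by
      intro p
      simp only [MeasurableEquiv.piFinSuccAbove_symm_apply, Fin.insertNthEquiv, Equiv.coe_fn_mk,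
        Fin.prod_univ_succ, Fin.insertNth_zero, Fin.cons_zero, Fin.cons_succ]
      rfl
    simp_rw [h2]
    simp only [Fin.zero_succAbove]
    rw [lintegral_prod _ (by
      refine Measurable.aemeasurable ?_
      refine ((hF 0).comp measurable_fst).mul ?_
      exact Finset.measurable_prod _ fun i _ =>
        (hF i.succ).comp ((measurable_pi_apply i).comp measurable_snd))]
    have h3 : ∀ y : ℝ, ∫⁻ z : Fin n → ℝ, F 0 y * ∏ j : Fin n, F j.succ (z j)
        ∂(Measure.pi fun i : Fin n => ν i.succ) = F 0 y * ∏ j : Fin n, ∫⁻ u, F j.succ u ∂(ν j.succ) := by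
      intro y
      rw [lintegral_const_mul _ (Finset.measurable_prod _ fun i _ =>
        (hF i.succ).comp (measurable_pi_apply i))]
      rw [ih (fun i => ν i.succ) (fun j => F j.succ) (fun j => hF j.succ)]
    simp only [h3]
    rw [lintegral_mul_const _ (hF 0), Fin.prod_univ_succ]

/-- density -/
def dens {N : ℕ} (x : Fin N → ℝ) : ENNReal := ENNReal.ofReal (exp (-∑ i, x i))

lemma dens_meas {N : ℕ} : Measurable (dens (N := N)) := by
  unfold dens; fun_prop

lemma μN_eq (N : ℕ) :
    μN N = (volume.restrict (Set.pi univ fun _ : Fin N => Ioi (0 : ℝ))).withDensity dens := by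
  unfold μN
  refine Measure.pi_eq fun s hs => ?_
  have hO : MeasurableSet (Set.pi univ fun _ : Fin N => Ioi (0 : ℝ)) :=
    MeasurableSet.univ_pi fun _ => measurableSet_Ioi
  have hb : MeasurableSet (Set.pi univ s) := MeasurableSet.univ_pi hs
  rw [withDensity_apply _ hb, Measure.restrict_restrict hb, ← Set.pi_inter_distrib]
  have hb2 : MeasurableSet (Set.pi univ fun i : Fin N => s i ∩ Ioi (0 : ℝ)) :=
    MeasurableSet.univ_pi fun i => (hs i).inter measurableSet_Ioi
  rw [← lintegral_indicator hb2, volume_pi]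
  have h1 : ∀ x : Fin N → ℝ, (Set.pi univ fun i : Fin N => s i ∩ Ioi (0 : ℝ)).indicator dens x
      = ∏ i, (s i ∩ Ioi (0 : ℝ)).indicator (fun y => ENNReal.ofReal (exp (-y))) (x i) := by
    intro x
    by_cases hx : x ∈ Set.pi univ fun i : Fin N => s i ∩ Ioi (0 : ℝ)
    · rw [indicator_of_mem hx]
      have hx' : ∀ i, x i ∈ s i ∩ Ioi (0 : ℝ) := fun i => hx i (mem_univ i)
      simp only [indicator_of_mem (hx' _)]
      unfold dens
      rw [← ENNReal.ofReal_prod_of_nonneg (fun i _ => (exp_pos _).le), ← Finset.sum_neg_distrib,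
        exp_sum]
    · rw [indicator_of_notMem hx]
      simp only [Set.mem_pi, mem_univ, true_imp_iff, not_forall] at hx
      obtain ⟨i, hi⟩ := hx
      symm
      exact Finset.prod_eq_zero (Finset.mem_univ i) (indicator_of_notMem hi _)
  simp_rw [h1]
  rw [lintegral_pi_prod (fun _ => volume)
    (fun i => (s i ∩ Ioi (0 : ℝ)).indicator (fun y => ENNReal.ofReal (exp (-y))))
    (fun i => by
      refine Measurable.indicator (by fun_prop) ((hs i).inter measurableSet_Ioi))]
  refine Finset.prod_congr rfl fun i _ => ?_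
  unfold ρ
  rw [withDensity_apply _ (hs i), Measure.restrict_restrict (hs i),
    lintegral_indicator ((hs i).inter measurableSet_Ioi)]

lemma bridge {N : ℕ} (h : (Fin N → ℝ) → ℝ) :
    ∫ x in Set.pi univ (fun _ : Fin N => Ioi (0 : ℝ)), h x * exp (-∑ i, x i) = ∫ x, h x ∂(μN N) := by
  rw [μN_eq, integral_withDensity_eq_integral_toReal_smul dens_meas
    (Eventually.of_forall fun _ => ENNReal.ofReal_lt_top)]
  refine integral_congr_ae (Eventually.of_forall fun x => ?_)
  simp [dens, ENNReal.toReal_ofReal (exp_pos _).le, mul_comm]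

lemma mul_identity : exp (4 / 3) / (4 / 3) * (1 - 4 / 9 * exp (-(1 / 3)))
    = 3 / 4 * exp (4 / 3) - exp 1 / 3 := by
  have h : exp (4 / 3) * exp (-(1 / 3)) = exp 1 := by
    rw [← exp_add]; norm_num
  have : exp (4 / 3) / (4 / 3) * (1 - 4 / 9 * exp (-(1 / 3)))
      = 3 / 4 * exp (4 / 3) - (exp (4 / 3) * exp (-(1 / 3))) / 3 := by ring
  rw [this, h]

lemma g_at : Crest.AlgGeometry.truncExpWeight (4 / 3) ≤ 1 - 4 / 9 * exp (-(1 / 3)) := by
  rw [g_pos_formula (by norm_num)]
  -- `exp(4/3) ≥ 293/81`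
  have h1 : (293 : ℝ) / 81 ≤ exp (4 / 3) := by
    have h := Real.sum_le_exp_of_nonneg (x := 4 / 3) (by norm_num) 4
    simp only [Finset.sum_range_succ, Finset.sum_range_zero, Nat.factorial] at h
    norm_num at h ⊢
    linarith
  have h2 : exp (-(4 / 3)) ≤ 81 / 293 := by
    rw [exp_neg, inv_eq_one_div]
    rw [div_le_iff₀ (exp_pos _)]
    have := exp_pos (4 / 3 : ℝ)
    nlinarith
  have h3 := exp_neg_third_le
  have h4 := exp_pos (-(4 / 3) : ℝ)
  nlinarith

theorem part_one (N : ℕ) (a : Fin N → ℝ) (hsum : ∑ i, a i = 0) :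
    exp (4 / 3) / (4 / 3) *
      ∫ x in Set.pi univ (fun _ : Fin N => Ioi (0 : ℝ)),
        Crest.AlgGeometry.truncExpWeight (4 / 3 + ∑ i, a i * x i) * exp (-∑ i, x i)
      ≤ 3 / 4 * exp (4 / 3) - exp 1 / 3 := by
  rw [bridge (fun x => Crest.AlgGeometry.truncExpWeight (4 / 3 + ∑ i, a i * x i)), ← mul_identity]
  refine mul_le_mul_of_nonneg_left ?_ (by positivity)
  by_cases hne : ∃ i, a i ≠ 0
  · exact F_upper_of_ne a hsum hne
  · push Not at hne
    simp only [hne, zero_mul, Finset.sum_const_zero, add_zero, integral_const, probReal_univ,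
      one_smul]
    exact g_at

end

end Crest.Agent.S0423Lib
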