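import Mathlib
import Crest.Prelude.Def_TruncExpWeight
import Crest.Agent.S0423Lib.Bridge

set_option autoImplicit false

namespace Crest.Agent.S0423Lib

open MeasureTheory Set Real Filter Topology ProbabilityTheory

noncomputable section

lemma g_lipschitz (u v : ℝ) :
    |Crest.AlgGeometry.truncExpWeight u - Crest.AlgGeometry.truncExpWeight v| ≤ |u - v| := by
  rw [← interval_w]
  have := intervalIntegral.norm_integral_le_of_norm_le_const (a := u) (b := v) (f := w) (C := 1)
    (fun t _ => by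
      rw [Real.norm_eq_abs, abs_of_nonneg (w_nonneg t)]
      exact w_le_one t)
  rw [Real.norm_eq_abs, one_mul, abs_sub_comm v u] at this
  exact this

lemma sum_memLp (N : ℕ) : MemLp (fun x : Fin N → ℝ => ∑ i, x i) 2 (μN N) := by
  have : ∀ i : Fin N, MemLp (fun x : Fin N → ℝ => x i) 2 (μN N) := fun i =>
    ρ_id_memLp.comp_measurePreserving (measurePreserving_eval (fun _ : Fin N => ρ) i)
  have h := memLp_finset_sum' Finset.univ fun i _ => this i
  have e : (fun x : Fin N → ℝ => ∑ i, x i) = ∑ i : Fin N, fun ω : Fin N → ℝ => ω i := by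
    funext x; simp
  rw [e]
  exact h

lemma sum_integral (N : ℕ) : ∫ x : Fin N → ℝ, ∑ i, x i ∂(μN N) = N := by
  rw [integral_finset_sum _ fun i _ => coord_integrable i]
  simp [coord_integral]

lemma T_integrable (N : ℕ) :
    Integrable (fun x : Fin N → ℝ => (∑ i, x i - N) ^ 2) (μN N) := by
  have h := (sum_memLp N).sub (memLp_const (N : ℝ))
  exact h.integrable_sq

lemma T_integral (N : ℕ) : ∫ x : Fin N → ℝ, (∑ i, x i - N) ^ 2 ∂(μN N) = N := by
  have hv := variance_sum_pi (μ := fun _ : Fin N => ρ) (X := fun _ y => y) (fun _ => ρ_id_memLp)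
  simp only [ρ_variance] at hv
  rw [variance_eq_integral] at hv
  · have e : (fun x : Fin N → ℝ => ∑ i, x i) = ∑ i : Fin N, fun ω : Fin N → ℝ => ω i := by
      funext x; simp
    rw [← e] at hv
    have h2 : ∫ x : Fin N → ℝ, ∑ i, x i ∂(Measure.pi fun _ : Fin N => ρ) = N := sum_integral N
    rw [h2] at hv
    simp only [Finset.sum_const, Finset.card_univ, Fintype.card_fin, nsmul_eq_mul, mul_one] at hv
    exact hv
  · exact Measurable.aemeasurable (by fun_prop)

lemma x0_integrable (n : ℕ) : Integrable (fun x : Fin (n + 1) → ℝ => (x 0) ^ 2) (μN (n + 1)) := by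
  unfold μN
  exact integrable_comp_eval (μ := fun _ => ρ) (f := fun x : ℝ => x ^ 2) ρ_sq_integrable

lemma x0_integral (n : ℕ) : ∫ x : Fin (n + 1) → ℝ, (x 0) ^ 2 ∂(μN (n + 1)) = 2 := by
  unfold μN
  rw [integral_comp_eval (μ := fun _ : Fin (n + 1) => ρ) (f := fun x : ℝ => x ^ 2) (by fun_prop)]
  exact ρ_sq_integral

/-- the extremal coefficients -/
def coeff (n : ℕ) (i : Fin (n + 1)) : ℝ := (if i = 0 then 2 + 2 / (n : ℝ) else 0) - 2 / (n : ℝ)

lemma coeff_sum (n : ℕ) (hn : 1 ≤ n) : ∑ i, coeff n i = 0 := by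
  have hn' : (n : ℝ) ≠ 0 := by positivity
  unfold coeff
  rw [Finset.sum_sub_distrib]
  simp only [Finset.sum_ite_eq', Finset.mem_univ, if_true, Finset.sum_const, Finset.card_univ,
    Fintype.card_fin, nsmul_eq_mul]
  push_cast
  field_simp
  ring

lemma coeff_linear (n : ℕ) (x : Fin (n + 1) → ℝ) :
    ∑ i, coeff n i * x i = (2 + 2 / (n : ℝ)) * x 0 - 2 / (n : ℝ) * ∑ i, x i := by
  unfold coeff
  simp only [sub_mul, ite_mul, zero_mul]
  rw [Finset.sum_sub_distrib, Finset.mul_sum]
  simp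

lemma limit_value :
    ∫ y, Crest.AlgGeometry.truncExpWeight (-(2 / 3) + 2 * y) ∂ρ = 1 - 4 / 9 * exp (-(1 / 3)) := by
  rw [F_comp _ (by norm_num : (0 : ℝ) < 2), J_formula1 (by norm_num) (by norm_num)]
  norm_num
  ring

lemma approx (n : ℕ) (hn : 1 ≤ n) (K : ℝ) (hK : 0 < K) (hnK : (n : ℝ) + 1 = K ^ 2) :
    1 - 4 / 9 * exp (-(1 / 3)) - 2 / (n : ℝ) * (K + 5 / 2)
      ≤ ∫ x, Crest.AlgGeometry.truncExpWeight (4 / 3 + ∑ i, coeff n i * x i) ∂(μN (n + 1)) := by
  have hnpos : (0 : ℝ) < n := by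
    have : 0 < n := hn
    exact_mod_cast this
  set B : (Fin (n + 1) → ℝ) → ℝ := fun x =>
    2 / (n : ℝ) * (((x 0) ^ 2 + 1) / 2 + ((∑ i, x i - ((n + 1 : ℕ) : ℝ)) ^ 2 / K + K) / 2 + 1) with hB
  have hBint : Integrable B (μN (n + 1)) := by
    refine Integrable.const_mul ?_ _
    refine Integrable.add (Integrable.add ?_ ?_) (integrable_const _)
    · exact ((x0_integrable n).add (integrable_const _)).div_const _
    · exact (((T_integrable (n + 1)).div_const _).add (integrable_const _)).div_const _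
  have hBval : ∫ x, B x ∂(μN (n + 1)) = 2 / (n : ℝ) * (K + 5 / 2) := by
    have i1 : Integrable (fun x : Fin (n + 1) → ℝ => ((x 0) ^ 2 + 1) / 2) (μN (n + 1)) :=
      ((x0_integrable n).add (integrable_const _)).div_const _
    have i2 : Integrable (fun x : Fin (n + 1) → ℝ =>
        ((∑ i, x i - ((n + 1 : ℕ) : ℝ)) ^ 2 / K + K) / 2) (μN (n + 1)) :=
      (((T_integrable (n + 1)).div_const _).add (integrable_const _)).div_const _
    rw [hB, integral_const_mul]
    congr 1
    have i3 : Integrable (fun x : Fin (n + 1) → ℝ => ((x 0) ^ 2 + 1) / 2 +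
        ((∑ i, x i - ((n + 1 : ℕ) : ℝ)) ^ 2 / K + K) / 2) (μN (n + 1)) := i1.add i2
    rw [integral_add i3 (integrable_const _), integral_add i1 i2]
    rw [integral_div, integral_div, integral_add (x0_integrable n) (integrable_const _),
      integral_add ((T_integrable (n + 1)).div_const _) (integrable_const _), integral_div,
      x0_integral, T_integral]
    simp only [integral_const, probReal_univ, one_smul]
    push_cast
    rw [hnK]
    field_simp
    ring
  have hY' : Integrable (fun x : Fin (n + 1) → ℝ =>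
      Crest.AlgGeometry.truncExpWeight (-(2 / 3) + 2 * x 0)) (μN (n + 1)) :=
    g_comp_integrable (by fun_prop)
  have hY'val : ∫ x : Fin (n + 1) → ℝ, Crest.AlgGeometry.truncExpWeight (-(2 / 3) + 2 * x 0)
      ∂(μN (n + 1)) = 1 - 4 / 9 * exp (-(1 / 3)) := by
    unfold μN
    rw [integral_comp_eval (μ := fun _ : Fin (n + 1) => ρ)
      (f := fun y : ℝ => Crest.AlgGeometry.truncExpWeight (-(2 / 3) + 2 * y))
      (g_meas.comp (by fun_prop)).aestronglyMeasurable]
    exact limit_value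
  have hY : Integrable (fun x : Fin (n + 1) → ℝ =>
      Crest.AlgGeometry.truncExpWeight (4 / 3 + ∑ i, coeff n i * x i)) (μN (n + 1)) :=
    g_comp_integrable (by fun_prop)
  have hpt : ∀ x : Fin (n + 1) → ℝ,
      Crest.AlgGeometry.truncExpWeight (-(2 / 3) + 2 * x 0) - B x
        ≤ Crest.AlgGeometry.truncExpWeight (4 / 3 + ∑ i, coeff n i * x i) := by
    intro x
    have h1 := g_lipschitz (-(2 / 3) + 2 * x 0) (4 / 3 + ∑ i, coeff n i * x i)
    have h2 : |(-(2 / 3) + 2 * x 0) - (4 / 3 + ∑ i, coeff n i * x i)| ≤ B x := by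
      rw [coeff_linear]
      set S := ∑ i, x i with hS
      set T := S - ((n + 1 : ℕ) : ℝ) with hT
      have e : (-(2 / 3) + 2 * x 0) - (4 / 3 + ((2 + 2 / (n : ℝ)) * x 0 - 2 / (n : ℝ) * S))
          = 2 / (n : ℝ) * (T + 1 - x 0) := by
        rw [hT]
        push_cast
        field_simp
        ring
      rw [e, abs_mul, abs_of_pos (by positivity : (0 : ℝ) < 2 / n)]
      refine mul_le_mul_of_nonneg_left ?_ (by positivity)
      have h3 : |T + 1 - x 0| ≤ |T| + 1 + |x 0| := by
        have := abs_sub (T + 1) (x 0)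
        have h4 := abs_add_le T 1
        simp only [abs_one] at h4
        linarith
      have h5 : |x 0| ≤ ((x 0) ^ 2 + 1) / 2 := by
        have := sq_nonneg (|x 0| - 1)
        have h6 := sq_abs (x 0)
        nlinarith
      have h7 : |T| ≤ (T ^ 2 / K + K) / 2 := by
        have h8 : T ^ 2 / K + K - 2 * |T| = (|T| - K) ^ 2 / K := by
          have h9 := sq_abs T
          field_simp
          nlinarith
        have h10 : 0 ≤ (|T| - K) ^ 2 / K := by positivity
        linarith
      linarith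
    have h3 := (abs_le.1 h1).1
    have h4 := (abs_le.1 h2).2
    linarith [(abs_le.1 h1).2, (abs_le.1 h2).2, le_abs_self ((-(2 / 3) + 2 * x 0) - (4 / 3 + ∑ i, coeff n i * x i))]
  have hmono : ∫ x, (Crest.AlgGeometry.truncExpWeight (-(2 / 3) + 2 * x 0) - B x) ∂(μN (n + 1))
      ≤ ∫ x, Crest.AlgGeometry.truncExpWeight (4 / 3 + ∑ i, coeff n i * x i) ∂(μN (n + 1)) :=
    integral_mono (hY'.sub hBint) hY hpt
  rw [integral_sub hY' hBint, hY'val, hBval] at hmono
  exact hmono

theorem part_two (ε : ℝ) (hε : 0 < ε) : ∃ (N : ℕ) (a : Fin N → ℝ), 1 ≤ N ∧ ∑ i, a i = 0 ∧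
      3 / 4 * exp (4 / 3) - exp 1 / 3 - ε <
        exp (4 / 3) / (4 / 3) *
          ∫ x in Set.pi univ (fun _ : Fin N => Ioi (0 : ℝ)),
            Crest.AlgGeometry.truncExpWeight (4 / 3 + ∑ i, a i * x i) * exp (-∑ i, x i) := by
  -- choose `k` large
  set C : ℝ := exp (4 / 3) / (4 / 3) with hC
  have hCpos : 0 < C := by rw [hC]; positivity
  obtain ⟨k, hk⟩ := exists_nat_gt (C * 4 / ε + 1)
  have hk1 : (1 : ℝ) < k := by
    have : 0 < C * 4 / ε := by positivity
    linarith
  have hk1' : 1 ≤ k := by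
    have : (1 : ℕ) < k := by exact_mod_cast hk1
    omega
  set n : ℕ := k ^ 2 + 2 * k with hn
  have hn1 : 1 ≤ n := by
    have : 1 ≤ k ^ 2 := Nat.one_le_pow _ _ hk1'
    omega
  have hnreal : (n : ℝ) = (k : ℝ) ^ 2 + 2 * k := by
    rw [hn]; push_cast; ring
  have hkpos : (0 : ℝ) < k := by linarith
  have hap := approx n hn1 ((k : ℝ) + 1) (by positivity) (by rw [hnreal]; ring)
  refine ⟨n + 1, coeff n, by omega, coeff_sum n hn1, ?_⟩
  rw [bridge (fun x => Crest.AlgGeometry.truncExpWeight (4 / 3 + ∑ i, coeff n i * x i)),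
    ← mul_identity, ← hC]
  have hbound : 2 / (n : ℝ) * ((k : ℝ) + 1 + 5 / 2) ≤ 4 / k := by
    rw [hnreal, div_mul_eq_mul_div, div_le_div_iff₀ (by positivity) hkpos]
    nlinarith
  have hsmall : C * (4 / k) < ε := by
    have h1 : C * 4 / ε < k := by linarith
    rw [div_lt_iff₀ hε] at h1
    have : C * (4 / k) = C * 4 / k := by ring
    rw [this, div_lt_iff₀ hkpos]
    linarith
  have h3 : C * (1 - 4 / 9 * exp (-(1 / 3)) - 4 / k)
      ≤ C * ∫ x, Crest.AlgGeometry.truncExpWeight (4 / 3 + ∑ i, coeff n i * x i) ∂(μN (n + 1)) := by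
    refine mul_le_mul_of_nonneg_left ?_ hCpos.le
    linarith
  have h4 : C * (1 - 4 / 9 * exp (-(1 / 3)) - 4 / k)
      = C * (1 - 4 / 9 * exp (-(1 / 3))) - C * (4 / k) := by ring
  linarith

end

end Crest.Agent.S0423Lib
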